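import Vale.Agent.P154.R4.BilB

/-! # P154 q = 4: assembling the checks -/

namespace Vale.Agent.P154

theorem chkH_append (D : ℕ) (x y z w h : P4) (rows : List Row) (j0 : ℕ) (Ls Ls' : List TL) :
    chkH D x y z w h rows j0 (Ls ++ Ls') =
      (chkH D x y z w h rows j0 Ls && chkH D x y z w h rows (j0 + Ls.length) Ls') := by
  induction Ls generalizing j0 with
  | nil => simp [chkH]
  | cons L Ls ih =>
    have e : j0 + (Ls.length + 1) = j0 + 1 + Ls.length := by omega
    simp only [List.cons_append, chkH, ih, List.length_cons, Bool.and_assoc, e]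

theorem chkG_append (D : ℕ) (x y z w h : P4) (G G' : List P4) (Ls Ls' : List TL)
    (h1 : chkG D x y z w h G Ls = true) (h2 : chkG D x y z w h G' Ls' = true) :
    chkG D x y z w h (G ++ G') (Ls ++ Ls') = true := by
  induction G generalizing Ls with
  | nil =>
    cases Ls with
    | nil => simpa using h2
    | cons L Ls => simp [chkG] at h1
  | cons g G ih =>
    cases Ls with
    | nil => simp [chkG] at h1
    | cons L Ls =>
      simp only [chkG, Bool.and_eq_true] at h1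
      simp only [List.cons_append, chkG, Bool.and_eq_true]
      exact ⟨h1.1, ih Ls h1.2⟩

theorem dotRR_append (a a' b b' : List ℝ) (h : a.length = b.length) :
    dotRR (a ++ a') (b ++ b') = dotRR a b + dotRR a' b' := by
  induction a generalizing b with
  | nil =>
    cases b with
    | nil => simp [dotRR]
    | cons g b => simp at h
  | cons c a ih =>
    cases b with
    | nil => simp at h
    | cons g b =>
      simp only [List.length_cons, Nat.add_right_cancel_iff] at h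
      simp only [List.cons_append, dotRR, ih b h]
      ring

/-- the three checks give the positivity of the bilinear expression on the two positive orthants -/
theorem pos_main (D : ℕ) (x y z w h x' y' z' w' h' : P4) (rows : List Row) (G : List P4)
    (Ls Lt : List TL) (h1 : rowsOK G rows = true) (h2 : chkH D x y z w h rows 0 Ls = true)
    (h3 : chkG D x' y' z' w' h' G Lt = true) (hlen : Ls.length = Lt.length)
    (s0 s1 s2 s3 t0 t1 t2 t3 : ℝ) (hs0 : 0 ≤ s0) (hs1 : 0 ≤ s1) (hs2 : 0 ≤ s2)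
    (hs3 : 0 ≤ s3) (ht0 : 0 ≤ t0) (ht1 : 0 ≤ t1) (ht2 : 0 ≤ t2) (ht3 : 0 ≤ t3) :
    0 ≤ dotRR
      (Ls.map (fun L => sm D L (ev4 s0 s1 s2 s3 x) (ev4 s0 s1 s2 s3 y) (ev4 s0 s1 s2 s3 z)
        (ev4 s0 s1 s2 s3 w) (ev4 s0 s1 s2 s3 h)))
      (Lt.map (fun L => sm D L (ev4 t0 t1 t2 t3 x') (ev4 t0 t1 t2 t3 y') (ev4 t0 t1 t2 t3 z')
        (ev4 t0 t1 t2 t3 w') (ev4 t0 t1 t2 t3 h'))) := by
  have hpos := rowsEv_nonneg s0 s1 s2 s3 t0 t1 t2 t3 hs0 hs1 hs2 hs3 ht0 ht1 ht2 ht3 G rows h1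
  rw [map_of_chkG D x' y' z' w' h' G Lt h3 t0 t1 t2 t3, rowsEv_eq, List.length_map, ← hlen,
    colsEv_of_chkH D x y z w h rows 0 Ls h2 s0 s1 s2 s3] at hpos
  exact hpos

/-- polynomial identities by computation -/
theorem sm_eq_of_chk (D : ℕ) (L : TL) (x y z w h tgt : P4)
    (hc : zr4 (ax4 (-1) (smP D L x y z w h) tgt) = true) (u0 u1 u2 u3 : ℝ) :
    sm D L (ev4 u0 u1 u2 u3 x) (ev4 u0 u1 u2 u3 y) (ev4 u0 u1 u2 u3 z) (ev4 u0 u1 u2 u3 w)
      (ev4 u0 u1 u2 u3 h) = ev4 u0 u1 u2 u3 tgt := by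
  rw [← ev4_smP]
  exact (ev4_eq_of_zr u0 u1 u2 u3 _ _ hc).symm

end Vale.Agent.P154
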