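import Vale.Agent.P154.R4.PermA

/-! # P154 q = 4: reduction to the chamber (sorted vectors, written through their gaps) -/

namespace Vale.Agent.P154

open Finset

/-- every nonnegative vector is, up to a permutation, of the form `(s0+s1+s2+s3, s0+s1+s2, s0+s1, s0)` with nonnegative gaps -/
theorem cham_exists (A : Fin 4 → ℝ) (h : ∀ i, 0 ≤ A i) :
    ∃ s0 s1 s2 s3 : ℝ, 0 ≤ s0 ∧ 0 ≤ s1 ∧ 0 ≤ s2 ∧ 0 ≤ s3 ∧
      4 * s0 + 3 * s1 + 2 * s2 + s3 = ∑ i, A i ∧
      ∀ a b c d : ℕ, pmV A a b c d = pm4 (s0 + s1 + s2 + s3) (s0 + s1 + s2) (s0 + s1) s0 a b c d := by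
  set τ : Equiv.Perm (Fin 4) := Tuple.sort (fun i => -A i) with hτ
  have hmono : Monotone ((fun i => -A i) ∘ τ) := Tuple.monotone_sort _
  have h01 : A (τ 1) ≤ A (τ 0) := by
    have := hmono (show (0 : Fin 4) ≤ 1 by decide)
    simp only [Function.comp] at this
    linarith
  have h12 : A (τ 2) ≤ A (τ 1) := by
    have := hmono (show (1 : Fin 4) ≤ 2 by decide)
    simp only [Function.comp] at this
    linarith
  have h23 : A (τ 3) ≤ A (τ 2) := by
    have := hmono (show (2 : Fin 4) ≤ 3 by decide)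
    simp only [Function.comp] at this
    linarith
  refine ⟨A (τ 3), A (τ 2) - A (τ 3), A (τ 1) - A (τ 2), A (τ 0) - A (τ 1), h _, by linarith,
    by linarith, by linarith, ?_, ?_⟩
  · rw [← Equiv.sum_comp τ A, Fin.sum_univ_four]
    ring
  · intro a b c d
    rw [← pmV_perm A τ a b c d]
    unfold pmV
    have e0 : A (τ 3) + (A (τ 2) - A (τ 3)) + (A (τ 1) - A (τ 2)) + (A (τ 0) - A (τ 1)) = A (τ 0) := by
      ring
    have e1 : A (τ 3) + (A (τ 2) - A (τ 3)) + (A (τ 1) - A (τ 2)) = A (τ 1) := by ring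
    have e2 : A (τ 3) + (A (τ 2) - A (τ 3)) = A (τ 2) := by ring
    rw [e0, e1, e2]

end Vale.Agent.P154
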