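import Vale.Agent.P154.R4.Bil
import Vale.Agent.P154.R4.Cham

/-! # P154 q = 4: the diagonal part of the bilinear expression is a sum over the relative permutations -/

namespace Vale.Agent.P154

open Finset

/-- diagonal terms: `s`-side and `t`-side lists -/
def dgS (L : TL) : List TL := L.map (fun t => [t])
def dgT (L : TL) : List TL := L.map (fun t => [((1 : ℤ), t.2)])

theorem sm_congr (D : ℕ) (L : TL) (x y z w x' y' z' w' h : ℝ)
    (hp : ∀ a b c d : ℕ, pm4 x y z w a b c d = pm4 x' y' z' w' a b c d) :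
    sm D L x y z w h = sm D L x' y' z' w' h := by
  induction L with
  | nil => simp [sm]
  | cons p L ih =>
    obtain ⟨c, a, b, c', d⟩ := p
    simp only [sm, hp, ih]

theorem dotRR_diag (D : ℕ) (L : TL) (A B : Fin 4 → ℝ) (hA hB : ℝ) :
    dotRR ((dgS L).map (fun l => sm D l (A 0) (A 1) (A 2) (A 3) hA))
      ((dgT L).map (fun l => sm D l (B 0) (B 1) (B 2) (B 3) hB)) =
    ∑ σ : Equiv.Perm (Fin 4),
      sm D L (A 0 * B (σ 0)) (A 1 * B (σ 1)) (A 2 * B (σ 2)) (A 3 * B (σ 3)) (hA * hB) := by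
  induction L with
  | nil => simp [dgS, dgT, dotRR, sm]
  | cons p L ih =>
    obtain ⟨c, a, b, c', d⟩ := p
    have hkey := pmV_sum_perm A B a b c' d
    simp only [pmV] at hkey
    have ih' : dotRR (List.map (fun l => sm D l (A 0) (A 1) (A 2) (A 3) hA) (List.map (fun t => [t]) L))
        (List.map (fun l => sm D l (B 0) (B 1) (B 2) (B 3) hB)
          (List.map (fun t => [((1 : ℤ), t.2)]) L)) =
      ∑ σ : Equiv.Perm (Fin 4),
        sm D L (A 0 * B (σ 0)) (A 1 * B (σ 1)) (A 2 * B (σ 2)) (A 3 * B (σ 3)) (hA * hB) := ih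
    simp only [dgS, dgT, List.map_cons, dotRR, sm, Finset.sum_add_distrib, ih']
    rw [← Finset.mul_sum, ← Finset.sum_mul, hkey, mul_pow]
    push_cast
    ring

/-- chamber coordinates, with the permutation -/
theorem cham_perm (A : Fin 4 → ℝ) (h : ∀ i, 0 ≤ A i) :
    ∃ (τ : Equiv.Perm (Fin 4)) (s0 s1 s2 s3 : ℝ), 0 ≤ s0 ∧ 0 ≤ s1 ∧ 0 ≤ s2 ∧ 0 ≤ s3 ∧
      4 * s0 + 3 * s1 + 2 * s2 + s3 = ∑ i, A i ∧
      A (τ 0) = s0 + s1 + s2 + s3 ∧ A (τ 1) = s0 + s1 + s2 ∧ A (τ 2) = s0 + s1 ∧ A (τ 3) = s0 := by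
  set τ : Equiv.Perm (Fin 4) := Tuple.sort (fun i => -A i) with hτ
  have hmono : Monotone ((fun i => -A i) ∘ τ) := Tuple.monotone_sort _
  have h01 : A (τ 1) ≤ A (τ 0) := by
    have := hmono (show (0 : Fin 4) ≤ 1 by decide)
    simp only [Function.comp] at this
    linarith
  have h12 : A (τ 2) ≤ A (τ 1) := by
    have := hmono (show (1 : Fin 4) ≤ 2 by decide)
    simp only [Function.comp] at this
    linarith
  have h23 : A (τ 3) ≤ A (τ 2) := by
    have := hmono (show (2 : Fin 4) ≤ 3 by decide)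
    simp only [Function.comp] at this
    linarith
  refine ⟨τ, A (τ 3), A (τ 2) - A (τ 3), A (τ 1) - A (τ 2), A (τ 0) - A (τ 1), h _, by linarith,
    by linarith, by linarith, ?_, by ring, by ring, by ring, rfl⟩
  rw [← Equiv.sum_comp τ A, Fin.sum_univ_four]
  ring

end Vale.Agent.P154
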