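import Vale.Agent.P154.R4.Defs
import Vale.Agent.P154.Q4.Cert4

/-! # P154 q = 4: the two pointwise inequalities give the merging certificate `CertQ 4 lam c0 (psK k)` for `0 ≤ lam ≤ 3/5` -/

namespace Vale.Agent.P154

open Finset

theorem psK_eq_ps4 (k : ℝ) : psK k = ps4 k := by
  funext e
  unfold psK ps4 m4
  ring

theorem cert4_of_keys (k c0 : ℝ) (pM c1 c2 : (Fin 4 → ℝ) → ℝ) (hk0 : 0 ≤ k) (hk : k ≤ 2) (hc0 : 0 ≤ c0)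
    (hpM : ∀ a : Fin 4 → ℝ, ∑ i, a i = 0 → (∀ i, -1 ≤ a i) → 0 ≤ pM a)
    (hc1 : ∀ b : Fin 4 → ℝ, ∑ i, b i = 0 → (∀ i, -(3 / 5) ≤ b i) → 0 ≤ c1 b)
    (hc2 : ∀ a : Fin 4 → ℝ, ∑ i, a i = 0 → (∀ i, -1 ≤ a i) → 0 ≤ c2 a)
    (HX : ∀ a b : Fin 4 → ℝ, ∑ i, a i = 0 → (∀ i, -1 ≤ a i) → ∑ i, b i = 0 → (∀ i, -(3 / 5) ≤ b i) →
      avQ (KQ alQ a) b ≤ alQ a + alQ b - pM b * psK k a - pM a * psK (5 * k / 3) b
        - c0 * (alQ a ^ 2 * alQ b + alQ a * alQ b ^ 2))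
    (HC : ∀ a b : Fin 4 → ℝ, ∑ i, a i = 0 → (∀ i, -1 ≤ a i) → ∑ i, b i = 0 → (∀ i, -(3 / 5) ≤ b i) →
      c1 b * psK k a + c2 a * psK (5 * k / 3) b ≤ avQ (KQ (psK k) a) b)
    (lam : ℝ) (h0 : 0 ≤ lam) (h1 : lam ≤ 3 / 5) : CertQ 4 lam c0 (psK k) := by
  have hk' : k / (3 / 5) = 5 * k / 3 := by ring
  have P : Pt4 (3 / 5) k c0 pM pM c1 c2 := by
    refine ⟨?_, ?_, ?_, ?_, ?_, ?_⟩
    · intro a b ha hb
      rw [hk', ← psK_eq_ps4, ← psK_eq_ps4]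
      exact HX a b ha.1 ha.2 hb.1 hb.2
    · intro a b ha hb
      rw [hk', ← psK_eq_ps4, ← psK_eq_ps4]
      exact HC a b ha.1 ha.2 hb.1 hb.2
    · intro b hb
      exact hpM b hb.1 fun i => by
        have := hb.2 i
        linarith
    · intro b hb
      exact hc1 b hb.1 hb.2
    · intro a ha
      exact hpM a ha.1 ha.2
    · intro a ha
      exact hc2 a ha.1 ha.2
  rw [psK_eq_ps4]
  exact cert4_of_pointwise P hk0 hk (by norm_num) (by norm_num) hc0 lam h0 h1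

end Vale.Agent.P154
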