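import Vale.Agent.P154.R4.Defs

/-! # P154 q = 4: the multipliers of the two pointwise inequalities -/

namespace Vale.Agent.P154

open Finset

noncomputable def m3Q (e : Fin 4 → ℝ) : ℝ := (∑ i, e i ^ 3) / 24

noncomputable def s4Q (e : Fin 4 → ℝ) : ℝ := (108 * (alQ e) ^ 2 - ∑ i, e i ^ 4) / 8

noncomputable def mulF (c0 c1 c2 c3 c4 c5 : ℝ) (e : Fin 4 → ℝ) : ℝ :=
  c0 + c1 * alQ e + c2 * m3Q e + c3 * (alQ e) ^ 2 + c4 * s4Q e + c5 * (alQ e * m3Q e)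

noncomputable def pMQ : (Fin 4 → ℝ) → ℝ := mulF 0 2 (-1 / 2) (-6) (2 / 3) 3

noncomputable def c1Q : (Fin 4 → ℝ) → ℝ :=
  mulF 1 (-6547 / 1000) (-859 / 1000) (35827 / 1000) (-1127 / 200) (-11701 / 1000)

noncomputable def c2Q : (Fin 4 → ℝ) → ℝ :=
  mulF 1 (-4719 / 1000) (-1669 / 500) (6183 / 250) (-1867 / 1000) (-6037 / 500)

end Vale.Agent.P154
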