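import Vale.Agent.P154.R4.SumE
import Vale.Agent.P154.R4.Mult
import Vale.Agent.P154.R4.Master2

/-! # P154 q = 4: assembling the closure inequality from its computed ingredients -/

namespace Vale.Agent.P154

open Finset

private lemma keyC_aux (K N Z e2 e3 r1 r2 r3 : ℝ) (hK : 0 < K) (hN : 0 < N) (hZ : 0 < Z)
    (he2 : 0 ≤ e2) (he3 : 0 ≤ e3) (h1 : r1 * Z ≤ N) (h2 : r2 * Z ^ 2 ≤ N) (h3 : N ≤ r3 * Z ^ 3) :
    K * (1 / 4) * Z + K * (4 / 3) / N * (e2 * r1) + K * 16 / N * (e3 * r2)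
        + -(K * (112 / 9) / N) * (e2 ^ 2 * r3) ≤
      K * ((2 - 7 / 4) * Z + (16 * (7 / 4) / 3 - 8) * e2 / Z + 16 * e3 / Z ^ 2
        - 64 * (7 / 4) / 9 * e2 ^ 2 / Z ^ 3) := by
  have hZ2 : 0 < Z ^ 2 := by positivity
  have hZ3 : 0 < Z ^ 3 := by positivity
  have a1 : r1 / N ≤ 1 / Z := by
    rw [div_le_div_iff₀ hN hZ]; linarith
  have a2 : r2 / N ≤ 1 / Z ^ 2 := by
    rw [div_le_div_iff₀ hN hZ2]; linarith
  have a3 : 1 / Z ^ 3 ≤ r3 / N := by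
    rw [div_le_div_iff₀ hZ3 hN]; linarith
  have b1 : K * (4 / 3) * e2 * (r1 / N) ≤ K * (4 / 3) * e2 * (1 / Z) :=
    mul_le_mul_of_nonneg_left a1 (by positivity)
  have b2 : K * 16 * e3 * (r2 / N) ≤ K * 16 * e3 * (1 / Z ^ 2) :=
    mul_le_mul_of_nonneg_left a2 (by positivity)
  have b3 : K * (112 / 9) * e2 ^ 2 * (1 / Z ^ 3) ≤ K * (112 / 9) * e2 ^ 2 * (r3 / N) :=
    mul_le_mul_of_nonneg_left a3 (by positivity)
  have e1 : K * (4 / 3) / N * (e2 * r1) = K * (4 / 3) * e2 * (r1 / N) := by ring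
  have e2' : K * 16 / N * (e3 * r2) = K * 16 * e3 * (r2 / N) := by ring
  have e3' : -(K * (112 / 9) / N) * (e2 ^ 2 * r3) = -(K * (112 / 9) * e2 ^ 2 * (r3 / N)) := by ring
  have e4 : K * ((2 - 7 / 4) * Z + (16 * (7 / 4) / 3 - 8) * e2 / Z + 16 * e3 / Z ^ 2
        - 64 * (7 / 4) / 9 * e2 ^ 2 / Z ^ 3) =
      K * (1 / 4) * Z + K * (4 / 3) * e2 * (1 / Z) + K * 16 * e3 * (1 / Z ^ 2)
        - K * (112 / 9) * e2 ^ 2 * (1 / Z ^ 3) := by ring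
  rw [e1, e2', e3', e4]
  linarith

theorem keyC_asm (D : ℕ) (Ld Xs0 Xs1 Xt0 Xt1 : TL) (R1 R2 R3 : List ℤ)
    (K KA KB N C0 C1 C2 C3 : ℝ) (hK : 0 < K) (hN : 0 < N) (hKK : KA * KB = 24 * K)
    (hC0 : C0 = K * (1 / 4)) (hC1 : C1 = K * (4 / 3) / N) (hC2 : C2 = K * 16 / N)
    (hC3 : C3 = -(K * (112 / 9) / N))
    (hR1 : ∀ z : ℝ, -(3 / 5) ≤ z → z ≤ 9 / 5 → ev1 z R1 * (1 + z) ≤ N)
    (hR2 : ∀ z : ℝ, -(3 / 5) ≤ z → z ≤ 9 / 5 → ev1 z R2 * (1 + z) ^ 2 ≤ N)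
    (hR3 : ∀ z : ℝ, -(3 / 5) ≤ z → z ≤ 9 / 5 → N ≤ ev1 z R3 * (1 + z) ^ 3)
    (hm : ∀ a b : Fin 4 → ℝ, ∑ i, a i = 0 → (∀ i, -1 ≤ a i) → ∑ i, b i = 0 → (∀ i, -(3 / 5) ≤ b i) →
      0 ≤ ∑ σ : Equiv.Perm (Fin 4),
        sm D Ld (120 * uQ a (fun i => b (σ i)) 0) (120 * uQ a (fun i => b (σ i)) 1)
          (120 * uQ a (fun i => b (σ i)) 2) (120 * uQ a (fun i => b (σ i)) 3) 48
      + dotRR ([Xs0, Xs1].map (fun l => sm D l (1 + a 0) (1 + a 1) (1 + a 2) (1 + a 3) 4))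
          ([Xt0, Xt1].map
            (fun l => sm D l (30 * (1 + b 0)) (30 * (1 + b 1)) (30 * (1 + b 2)) (30 * (1 + b 3)) 12)))
    (hid : ∀ u0 u1 u2 u3 : ℝ, sm D Ld (120 * u0) (120 * u1) (120 * u2) (120 * u3) 48 =
      C0 * (u0 + u1 + u2 + u3)
      + C1 * ((u0 * u1 + u0 * u2 + u0 * u3 + u1 * u2 + u1 * u3 + u2 * u3) * ev1 (u0 + u1 + u2 + u3 - 1) R1)
      + C2 * ((u0 * u1 * u2 + u0 * u1 * u3 + u0 * u2 * u3 + u1 * u2 * u3) * ev1 (u0 + u1 + u2 + u3 - 1) R2)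
      + C3 * ((u0 * u1 + u0 * u2 + u0 * u3 + u1 * u2 + u1 * u3 + u2 * u3) ^ 2
          * ev1 (u0 + u1 + u2 + u3 - 1) R3))
    (hs0 : ∀ a : Fin 4 → ℝ, sm D Xs0 (1 + a 0) (1 + a 1) (1 + a 2) (1 + a 3) 4 = KA * (-psK (7 / 4) a))
    (hs1 : ∀ a : Fin 4 → ℝ, sm D Xs1 (1 + a 0) (1 + a 1) (1 + a 2) (1 + a 3) 4 = KA * (-c2Q a))
    (ht0 : ∀ b : Fin 4 → ℝ,
      sm D Xt0 (30 * (1 + b 0)) (30 * (1 + b 1)) (30 * (1 + b 2)) (30 * (1 + b 3)) 12 = KB * c1Q b)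
    (ht1 : ∀ b : Fin 4 → ℝ,
      sm D Xt1 (30 * (1 + b 0)) (30 * (1 + b 1)) (30 * (1 + b 2)) (30 * (1 + b 3)) 12 =
        KB * psK (35 / 12) b)
    (a b : Fin 4 → ℝ) (ha0 : ∑ i, a i = 0) (ha : ∀ i, -1 ≤ a i) (hb0 : ∑ i, b i = 0)
    (hb : ∀ i, -(3 / 5) ≤ b i) :
    c1Q b * psK (7 / 4) a + c2Q a * psK (5 * (7 / 4) / 3) b ≤ avQ (KQ (psK (7 / 4)) a) b := by
  have hpt : ∀ c : Fin 4 → ℝ, ∑ i, c i = 0 → (∀ i, -(3 / 5) ≤ c i) →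
      sm D Ld (120 * uQ a c 0) (120 * uQ a c 1) (120 * uQ a c 2) (120 * uQ a c 3) 48 ≤
        K * KQ (psK (7 / 4)) a c := by
    intro c hbs0 hbs
    obtain ⟨hZl, hZu⟩ := e1Q_range a c ha0 ha hbs0 hbs
    have hZpos : 0 < e1Q (uQ a c) := by linarith
    have hZQ : 0 < ZQ a c := by rw [ZQ_eq_e1]; exact hZpos
    have hU : ∀ i, 0 ≤ uQ a c i := uQ_nonneg a c ha hbs
    have he2 := e2Q_nonneg (uQ a c) hU
    have he3 := e3Q_nonneg (uQ a c) hU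
    rw [KQ_ps_eq (7 / 4) a c hZQ, hid, hC0, hC1, hC2, hC3]
    have hz1 : -(3 / 5) ≤ e1Q (uQ a c) - 1 := by linarith
    have hz2 : e1Q (uQ a c) - 1 ≤ 9 / 5 := by linarith
    have r1 := hR1 _ hz1 hz2
    have r2 := hR2 _ hz1 hz2
    have r3 := hR3 _ hz1 hz2
    have hzz : 1 + (e1Q (uQ a c) - 1) = e1Q (uQ a c) := by ring
    rw [hzz] at r1 r2 r3
    exact keyC_aux K N (e1Q (uQ a c)) (e2Q (uQ a c)) (e3Q (uQ a c)) _ _ _ hK hN hZpos he2 he3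
      r1 r2 r3
  have hsum : ∑ σ : Equiv.Perm (Fin 4),
        sm D Ld (120 * uQ a (fun i => b (σ i)) 0) (120 * uQ a (fun i => b (σ i)) 1)
          (120 * uQ a (fun i => b (σ i)) 2) (120 * uQ a (fun i => b (σ i)) 3) 48 ≤
      ∑ σ : Equiv.Perm (Fin 4), K * KQ (psK (7 / 4)) a (fun i => b (σ i)) := by
    refine Finset.sum_le_sum fun σ _ => ?_
    refine hpt (fun i => b (σ i)) ?_ (fun i => hb (σ i))
    rw [← hb0]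
    exact Equiv.sum_comp σ b
  rw [← Finset.mul_sum] at hsum
  have h0 := hm a b ha0 ha hb0 hb
  simp only [List.map_cons, List.map_nil, dotRR, hs0, hs1, ht0, ht1] at h0
  have h35 : (5 * (7 / 4) / 3 : ℝ) = 35 / 12 := by norm_num
  rw [h35]
  unfold avQ
  have hf : ((Nat.factorial 4 : ℕ) : ℝ) = 24 := by norm_num [Nat.factorial]
  rw [hf, le_div_iff₀ (by norm_num : (0 : ℝ) < 24)]
  have e1 : KA * KB * (psK (7 / 4) a * c1Q b) = 24 * K * (psK (7 / 4) a * c1Q b) := by rw [hKK]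
  have e2 : KA * KB * (c2Q a * psK (35 / 12) b) = 24 * K * (c2Q a * psK (35 / 12) b) := by
    rw [hKK]
  have h2 : K * ((c1Q b * psK (7 / 4) a + c2Q a * psK (35 / 12) b) * 24) ≤
      K * ∑ σ : Equiv.Perm (Fin 4), KQ (psK (7 / 4)) a (fun i => b (σ i)) := by
    linarith
  exact le_of_mul_le_mul_left h2 hK

end Vale.Agent.P154
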