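import Vale.Agent.P154.R4.Sm

/-!
# P154 q = 4: positivity of a bilinear expression `∑_j H_j(s) G_j(t)` from a coefficient table

A table is a list of rows `((a0, a1, a2, a3), v)`: the monomial `s0^a0 s1^a1 s2^a2 s3^a3` and the vector `v = (coefficient of that monomial in H_j)_j`.
* `comb v G = ∑_j v_j G_j` (polynomial in `t`), `rowsOK G rows`: all these combinations have nonnegative coefficients.
* `colP j rows`: the polynomial `H_j` read off from the table.
-/

namespace Vale.Agent.P154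

abbrev Row := (ℕ × ℕ × ℕ × ℕ) × List ℤ

def comb : List ℤ → List P4 → P4
  | c :: v, g :: G => ax4 c g (comb v G)
  | _, _ => []

def rowsOK (G : List P4) (rows : List Row) : Bool := rows.all (fun r => nn4 (comb r.2 G))

def mono1 (a3 : ℕ) (c : ℤ) : P1 := List.replicate a3 0 ++ [c]
def mono2 (a2 a3 : ℕ) (c : ℤ) : P2 := List.replicate a2 [] ++ [mono1 a3 c]
def mono3 (a1 a2 a3 : ℕ) (c : ℤ) : P3 := List.replicate a1 [] ++ [mono2 a2 a3 c]
def mono4 (a0 a1 a2 a3 : ℕ) (c : ℤ) : P4 := List.replicate a0 [] ++ [mono3 a1 a2 a3 c]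

def colP (j : ℕ) : List Row → P4
  | [] => []
  | ((a0, a1, a2, a3), v) :: rows => add4 (mono4 a0 a1 a2 a3 (v.getD j 0)) (colP j rows)

noncomputable def dotR : List ℤ → List ℝ → ℝ
  | c :: v, g :: γ => (c : ℝ) * g + dotR v γ
  | _, _ => 0

noncomputable def dotRR : List ℝ → List ℝ → ℝ
  | c :: v, g :: γ => c * g + dotRR v γ
  | _, _ => 0

noncomputable def rowsEv (s0 s1 s2 s3 : ℝ) (γ : List ℝ) : List Row → ℝ
  | [] => 0
  | ((a0, a1, a2, a3), v) :: rows =>
    s0 ^ a0 * s1 ^ a1 * s2 ^ a2 * s3 ^ a3 * dotR v γ + rowsEv s0 s1 s2 s3 γ rows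

/-- the values `H_j(s)` for `j = j0, ..., j0 + n - 1` -/
noncomputable def colsEv (s0 s1 s2 s3 : ℝ) (rows : List Row) : ℕ → ℕ → List ℝ
  | _, 0 => []
  | j0, n + 1 => ev4 s0 s1 s2 s3 (colP j0 rows) :: colsEv s0 s1 s2 s3 rows (j0 + 1) n

theorem evL_replicate {R : Type} (ev : R → ℝ) (x : ℝ) (z r : R) (hz : ev z = 0) (n : ℕ) :
    evL ev x (List.replicate n z ++ [r]) = x ^ n * ev r := by
  induction n with
  | zero => simp [evL]
  | succ n ih =>
    simp only [List.replicate_succ, List.cons_append, evL, hz, ih]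
    ring

theorem ev4_mono4 (s0 s1 s2 s3 : ℝ) (a0 a1 a2 a3 : ℕ) (c : ℤ) :
    ev4 s0 s1 s2 s3 (mono4 a0 a1 a2 a3 c) = s0 ^ a0 * s1 ^ a1 * s2 ^ a2 * s3 ^ a3 * c := by
  unfold mono4 mono3 mono2 mono1 ev4 ev3 ev2 ev1
  rw [evL_replicate _ _ _ _ (by simp [evL]), evL_replicate _ _ _ _ (by simp [evL]),
    evL_replicate _ _ _ _ (by simp [evL]), evL_replicate _ _ _ _ (by simp)]
  ring

theorem dotR_comb (t0 t1 t2 t3 : ℝ) (v : List ℤ) (G : List P4) :
    dotR v (G.map (ev4 t0 t1 t2 t3)) = ev4 t0 t1 t2 t3 (comb v G) := by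
  induction v generalizing G with
  | nil => simp [dotR, comb, ev4_nil]
  | cons c v ih =>
    cases G with
    | nil => simp [dotR, comb, ev4_nil]
    | cons g G => simp only [List.map, dotR, comb, ev4_ax, ih]

theorem rowsEv_nonneg (s0 s1 s2 s3 t0 t1 t2 t3 : ℝ) (hs0 : 0 ≤ s0) (hs1 : 0 ≤ s1) (hs2 : 0 ≤ s2)
    (hs3 : 0 ≤ s3) (ht0 : 0 ≤ t0) (ht1 : 0 ≤ t1) (ht2 : 0 ≤ t2) (ht3 : 0 ≤ t3) (G : List P4)
    (rows : List Row) (h : rowsOK G rows = true) :
    0 ≤ rowsEv s0 s1 s2 s3 (G.map (ev4 t0 t1 t2 t3)) rows := by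
  induction rows with
  | nil => simp [rowsEv]
  | cons r rows ih =>
    obtain ⟨⟨a0, a1, a2, a3⟩, v⟩ := r
    simp only [rowsOK, List.all_cons, Bool.and_eq_true] at h
    simp only [rowsEv]
    refine add_nonneg (mul_nonneg (by positivity) ?_) (ih h.2)
    rw [dotR_comb]
    exact ev4_nonneg _ _ _ _ ht0 ht1 ht2 ht3 _ h.1

theorem rowsOK_append (G : List P4) (r r' : List Row) :
    rowsOK G (r ++ r') = (rowsOK G r && rowsOK G r') := by
  simp [rowsOK, List.all_append]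

theorem colsEv_add (s0 s1 s2 s3 : ℝ) (rows : List Row) (j0 n m : ℕ) :
    colsEv s0 s1 s2 s3 rows j0 (n + m) =
      colsEv s0 s1 s2 s3 rows j0 n ++ colsEv s0 s1 s2 s3 rows (j0 + n) m := by
  induction n generalizing j0 with
  | zero => simp [colsEv]
  | succ n ih =>
    have e1 : n + 1 + m = (n + m) + 1 := by omega
    have e2 : j0 + (n + 1) = j0 + 1 + n := by omega
    rw [e1, e2]
    simp only [colsEv, List.cons_append, ih]

/-- check that the columns `j0, j0 + 1, ...` of the table are the polynomials `smP D L x y z w h`, `L ∈ Ls` -/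
def chkH (D : ℕ) (x y z w h : P4) (rows : List Row) : ℕ → List TL → Bool
  | _, [] => true
  | j0, L :: Ls => zr4 (ax4 (-1) (smP D L x y z w h) (colP j0 rows)) && chkH D x y z w h rows (j0 + 1) Ls

theorem colsEv_of_chkH (D : ℕ) (x y z w h : P4) (rows : List Row) (j0 : ℕ) (Ls : List TL)
    (hc : chkH D x y z w h rows j0 Ls = true) (s0 s1 s2 s3 : ℝ) :
    colsEv s0 s1 s2 s3 rows j0 Ls.length =
      Ls.map (fun L => sm D L (ev4 s0 s1 s2 s3 x) (ev4 s0 s1 s2 s3 y) (ev4 s0 s1 s2 s3 z)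
        (ev4 s0 s1 s2 s3 w) (ev4 s0 s1 s2 s3 h)) := by
  induction Ls generalizing j0 with
  | nil => simp [colsEv]
  | cons L Ls ih =>
    simp only [chkH, Bool.and_eq_true] at hc
    simp only [List.length_cons, colsEv, List.map_cons, ih (j0 + 1) hc.2]
    rw [ev4_eq_of_zr s0 s1 s2 s3 _ _ hc.1, ev4_smP]

/-- check that the polynomials of the list `G` are `smP D L x y z w h`, `L ∈ Ls` -/
def chkG (D : ℕ) (x y z w h : P4) : List P4 → List TL → Bool
  | [], [] => true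
  | g :: G, L :: Ls => zr4 (ax4 (-1) (smP D L x y z w h) g) && chkG D x y z w h G Ls
  | _, _ => false

theorem map_of_chkG (D : ℕ) (x y z w h : P4) (G : List P4) (Ls : List TL)
    (hc : chkG D x y z w h G Ls = true) (t0 t1 t2 t3 : ℝ) :
    G.map (ev4 t0 t1 t2 t3) =
      Ls.map (fun L => sm D L (ev4 t0 t1 t2 t3 x) (ev4 t0 t1 t2 t3 y) (ev4 t0 t1 t2 t3 z)
        (ev4 t0 t1 t2 t3 w) (ev4 t0 t1 t2 t3 h)) := by
  induction G generalizing Ls with
  | nil =>
    cases Ls with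
    | nil => simp
    | cons L Ls => simp [chkG] at hc
  | cons g G ih =>
    cases Ls with
    | nil => simp [chkG] at hc
    | cons L Ls =>
      simp only [chkG, Bool.and_eq_true] at hc
      simp only [List.map_cons, ih Ls hc.2]
      rw [ev4_eq_of_zr t0 t1 t2 t3 _ _ hc.1, ev4_smP]

end Vale.Agent.P154
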