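import Vale.Agent.P154.R4.Bil

/-! # P154 q = 4: exchange of the two summations in the coefficient table -/

namespace Vale.Agent.P154

private theorem dotR_nil_right (v : List ℤ) : dotR v [] = 0 := by
  cases v <;> simp [dotR]

private theorem dotR_drop (v : List ℤ) (j0 : ℕ) (g : ℝ) (γ : List ℝ) :
    dotR (v.drop j0) (g :: γ) = ((v.getD j0 0 : ℤ) : ℝ) * g + dotR (v.drop (j0 + 1)) γ := by
  induction v generalizing j0 with
  | nil => simp [dotR]
  | cons c v ih =>
    cases j0 with
    | zero => simp [dotR]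
    | succ j =>
      have h := ih j
      simpa using h

private theorem dotRR_cols_nil (s0 s1 s2 s3 : ℝ) (γ : List ℝ) (j0 : ℕ) :
    dotRR (colsEv s0 s1 s2 s3 [] j0 γ.length) γ = 0 := by
  induction γ generalizing j0 with
  | nil => simp [colsEv, dotRR]
  | cons g γ ih =>
    simp only [List.length_cons, colsEv, dotRR, colP, ev4_nil, ih]
    ring

private theorem dotRR_cols_cons (s0 s1 s2 s3 : ℝ) (a0 a1 a2 a3 : ℕ) (v : List ℤ) (rows : List Row)
    (γ : List ℝ) (j0 : ℕ) :
    dotRR (colsEv s0 s1 s2 s3 (((a0, a1, a2, a3), v) :: rows) j0 γ.length) γ =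
      s0 ^ a0 * s1 ^ a1 * s2 ^ a2 * s3 ^ a3 * dotR (v.drop j0) γ +
        dotRR (colsEv s0 s1 s2 s3 rows j0 γ.length) γ := by
  induction γ generalizing j0 with
  | nil => simp [colsEv, dotRR, dotR_nil_right]
  | cons g γ ih =>
    simp only [List.length_cons, colsEv, dotRR, colP, ev4_add, ev4_mono4, ih, dotR_drop]
    ring

/-- exchange of the two summations -/
theorem rowsEv_eq (s0 s1 s2 s3 : ℝ) (γ : List ℝ) (rows : List Row) :
    rowsEv s0 s1 s2 s3 γ rows = dotRR (colsEv s0 s1 s2 s3 rows 0 γ.length) γ := by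
  induction rows with
  | nil => rw [dotRR_cols_nil]; rfl
  | cons r rows ih =>
    obtain ⟨⟨a0, a1, a2, a3⟩, v⟩ := r
    rw [dotRR_cols_cons, ← ih]
    simp [rowsEv]

end Vale.Agent.P154
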