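import Vale.Agent.P154.R4.TabC

/-! # P154 q = 4: transposition check and the final positivity statement (flat version) -/

namespace Vale.Agent.P154

/-- substitution of a polynomial for the outermost variable -/
def sub0 (wp : P4) : P4 → P4
  | [] => []
  | c :: p => add4 [c] (mul4 wp (sub0 wp p))

theorem ev4_sub0 (t0 t1 t2 t3 : ℝ) (wp p : P4) :
    ev4 t0 t1 t2 t3 (sub0 wp p) = ev4 (ev4 t0 t1 t2 t3 wp) t1 t2 t3 p := by
  induction p with
  | nil => simp [sub0, ev4, evL]
  | cons c p ih =>
    rw [sub0, ev4_add, ev4_mul, ih]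
    simp [ev4, evL]

/-- `vs`: the rows (one vector per monomial), `cs`: the columns (one flat vector per index `j`) -/
def chkCols : List (List ℤ) → List (List ℤ) → Bool
  | _, [] => true
  | vs, c :: cs => zr1 (ax1 (-1) c (vs.map (fun v => v.headD 0))) && chkCols (vs.map List.tail) cs

theorem dotRR_nil_right (v : List ℝ) : dotRR v [] = 0 := by
  cases v <;> rfl

theorem dotR_nil_right (v : List ℤ) : dotR v [] = 0 := by
  cases v <;> rfl

theorem dotRR_map_zero {α : Type} (vs : List α) (σ : List ℝ) :
    dotRR (vs.map (fun _ => (0 : ℝ))) σ = 0 := by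
  induction vs generalizing σ with
  | nil => rfl
  | cons v vs ih =>
    cases σ with
    | nil => rfl
    | cons s σ =>
      simp only [List.map_cons, dotRR, ih]
      ring

theorem dotRR_map_dotR_nil (vs : List (List ℤ)) (σ : List ℝ) :
    dotRR (vs.map (fun v => dotR v [])) σ = 0 := by
  have h : (fun v : List ℤ => dotR v []) = fun _ => (0 : ℝ) := by
    funext v
    exact dotR_nil_right v
  rw [h, dotRR_map_zero]

theorem dotR_cons_right (v : List ℤ) (g : ℝ) (γ : List ℝ) :
    dotR v (g :: γ) = ((v.headD 0 : ℤ) : ℝ) * g + dotR v.tail γ := by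
  cases v with
  | nil => simp [dotR]
  | cons c v => simp [dotR]

theorem dotRR_map_lin {α : Type} (vs : List α) (a b : α → ℝ) (g : ℝ) (σ : List ℝ) :
    dotRR (vs.map (fun v => a v * g + b v)) σ =
      g * dotRR (vs.map a) σ + dotRR (vs.map b) σ := by
  induction vs generalizing σ with
  | nil => simp [dotRR]
  | cons v vs ih =>
    cases σ with
    | nil => simp [dotRR]
    | cons s σ =>
      simp only [List.map_cons, dotRR, ih]
      ring

theorem dotRR_map_cast {α : Type} (vs : List α) (f : α → ℤ) (σ : List ℝ) :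
    dotRR (vs.map (fun v => ((f v : ℤ) : ℝ))) σ = dotR (vs.map f) σ := by
  induction vs generalizing σ with
  | nil => simp [dotRR, dotR]
  | cons v vs ih =>
    cases σ with
    | nil => simp [dotRR, dotR]
    | cons s σ => simp only [List.map_cons, dotRR, dotR, ih]

theorem dotRR_cols (vs cs : List (List ℤ)) (hc : chkCols vs cs = true) (σ γ : List ℝ)
    (hl : γ.length ≤ cs.length) :
    dotRR (vs.map (fun v => dotR v γ)) σ = dotRR (cs.map (fun c => dotR c σ)) γ := by
  induction cs generalizing vs γ with
  | nil =>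
    have hγ : γ = [] := List.length_eq_zero_iff.1 (Nat.le_zero.1 (by simpa using hl))
    subst hγ
    rw [dotRR_map_dotR_nil]
    simp [dotRR]
  | cons c cs ih =>
    cases γ with
    | nil =>
      rw [dotRR_map_dotR_nil]
      simp [dotRR]
    | cons g γ' =>
      rw [chkCols, Bool.and_eq_true] at hc
      obtain ⟨hc1, hc2⟩ := hc
      have hl' : γ'.length ≤ cs.length := by simpa using hl
      have h1 : (fun v : List ℤ => dotR v (g :: γ')) =
          fun v => ((v.headD 0 : ℤ) : ℝ) * g + dotR v.tail γ' := by
        funext v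
        exact dotR_cons_right v g γ'
      rw [h1, dotRR_map_lin, dotRR_map_cast, dotR_eq_of_zr1 _ _ hc1 σ]
      have h2 := ih (vs.map List.tail) hc2 γ' hl'
      rw [List.map_map] at h2
      have h3 : ((fun v : List ℤ => dotR v γ') ∘ List.tail) = fun v => dotR v.tail γ' := rfl
      rw [h3] at h2
      rw [h2]
      simp only [List.map_cons, dotRR]
      ring

/-- all coefficients of `∑_j v_j G_j` are nonnegative -/
def RowPos (G : List (List ℤ)) (v : List ℤ) : Prop := ∀ x ∈ comb1 v G, 0 ≤ x

def rowsOKF (G : List (List ℤ)) (vs : List (List ℤ)) : Bool :=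
  vs.all (fun v => nn1 (comb1 v G))

theorem rowPos_of_rowsOKF (G vs : List (List ℤ)) (h : rowsOKF G vs = true) : ∀ v ∈ vs, RowPos G v := by
  intro v hv x hx
  unfold rowsOKF at h
  have h1 := (List.all_eq_true.1 h) v hv
  unfold nn1 at h1
  have h2 := (List.all_eq_true.1 h1) x hx
  exact of_decide_eq_true h2

end Vale.Agent.P154
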