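import Vale.Agent.P154.R4.Cols

/-! # P154 q = 4: final positivity statement (flat version) -/

namespace Vale.Agent.P154

/-- final positivity statement at a pair of points: `σ`, `τ` are the values of the monomials -/
theorem posF (D : ℕ) (x y z w h x' y' z' w' h' : ℝ) (σ τ : List ℝ) (hσ : ∀ u ∈ σ, 0 ≤ u)
    (hτ : ∀ u ∈ τ, 0 ≤ u) (FT GT : Tb) (hF : ∀ p ∈ FT, GoodE D x y z w h σ p)
    (hG : ∀ p ∈ GT, GoodE D x' y' z' w' h' τ p) (Ls Lt : List TL) (hlen : Ls.length = Lt.length)
    (hLs : Ls.all (hasT FT) = true) (hLt : Lt.all (hasT GT) = true) (vs : List (List ℤ))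
    (hc : chkCols vs (Ls.map (cmbT FT)) = true) (hr : ∀ v ∈ vs, RowPos (Lt.map (cmbT GT)) v) :
    0 ≤ dotRR (Ls.map (fun L => sm D L x y z w h)) (Lt.map (fun L => sm D L x' y' z' w' h')) := by
  have hγ : Lt.map (fun L => sm D L x' y' z' w' h') = Lt.map (fun L => dotR (cmbT GT L) τ) := by
    apply List.map_congr_left
    intro L hL
    exact (dotR_cmbT D x' y' z' w' h' τ GT hG L (List.all_eq_true.1 hLt L hL)).symm
  have hs : Ls.map (fun L => sm D L x y z w h)
      = (Ls.map (cmbT FT)).map (fun c => dotR c σ) := by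
    rw [List.map_map]
    apply List.map_congr_left
    intro L hL
    exact (dotR_cmbT D x y z w h σ FT hF L (List.all_eq_true.1 hLs L hL)).symm
  rw [hγ, hs]
  have hl : (Lt.map (fun L => dotR (cmbT GT L) τ)).length ≤ (Ls.map (cmbT FT)).length := by
    simp [hlen]
  rw [← dotRR_cols vs (Ls.map (cmbT FT)) hc σ (Lt.map (fun L => dotR (cmbT GT L) τ)) hl]
  apply dotRR_nonneg _ _ _ hσ
  intro u hu
  obtain ⟨v, hv, rfl⟩ := List.mem_map.1 hu
  have e : Lt.map (fun L => dotR (cmbT GT L) τ)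
      = (Lt.map (cmbT GT)).map (fun g => dotR g τ) := by
    rw [List.map_map]
    rfl
  rw [e, ← dotR_comb1]
  exact dotR_nonneg _ _ (hr v hv) hτ

end Vale.Agent.P154
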