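import Vale.Agent.P154.Q4.MainQ

/-!
# P154, q = 4: definitions for the pointwise certificates

* `psK k e = (∑ e i ^ 3) / 12 - k * (alQ e) ^ 2`: the class function (the class is `0 ≤ E psK`).
* `pm4 x y z w a b c d`: the sum over the 24 bijective assignments of the exponents `a b c d` to the variables `x y z w`
  (a multiple of the monomial symmetric function).
* `uQ a b i = (1 + a i) (1 + b i) / 4`, and the elementary symmetric functions `e1Q, e2Q, e3Q` of four numbers.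
-/

namespace Vale.Agent.P154

open Finset

noncomputable def psK (k : ℝ) (e : Fin 4 → ℝ) : ℝ := (∑ i, e i ^ 3) / 12 - k * (alQ e) ^ 2

noncomputable def pm2 (x y : ℝ) (a b : ℕ) : ℝ := x ^ a * y ^ b + x ^ b * y ^ a

noncomputable def pm3 (x y z : ℝ) (a b c : ℕ) : ℝ :=
  x ^ a * pm2 y z b c + x ^ b * pm2 y z a c + x ^ c * pm2 y z a b

noncomputable def pm4 (x y z w : ℝ) (a b c d : ℕ) : ℝ :=
  x ^ a * pm3 y z w b c d + x ^ b * pm3 y z w a c d + x ^ c * pm3 y z w a b d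
    + x ^ d * pm3 y z w a b c

/-- `pm4` of a vector -/
noncomputable def pmV (A : Fin 4 → ℝ) (a b c d : ℕ) : ℝ := pm4 (A 0) (A 1) (A 2) (A 3) a b c d

noncomputable def uQ (a b : Fin 4 → ℝ) (i : Fin 4) : ℝ := (1 + a i) * (1 + b i) / 4

noncomputable def e1Q (U : Fin 4 → ℝ) : ℝ := U 0 + U 1 + U 2 + U 3

noncomputable def e2Q (U : Fin 4 → ℝ) : ℝ :=
  U 0 * U 1 + U 0 * U 2 + U 0 * U 3 + U 1 * U 2 + U 1 * U 3 + U 2 * U 3

noncomputable def e3Q (U : Fin 4 → ℝ) : ℝ :=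
  U 0 * U 1 * U 2 + U 0 * U 1 * U 3 + U 0 * U 2 * U 3 + U 1 * U 2 * U 3

end Vale.Agent.P154
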