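import Vale.Agent.P154.R4.Bil

/-!
# P154 q = 4: flat coefficient vectors

A homogeneous polynomial is stored as the list of its coefficients with respect to a fixed list `ms : List Ex` of exponents.
Its value at a point is `dotR g (ms.map (monoR t0 t1 t2 t3))`.
-/

namespace Vale.Agent.P154

abbrev Ex := ℕ × ℕ × ℕ × ℕ

noncomputable def monoR (t0 t1 t2 t3 : ℝ) (m : Ex) : ℝ :=
  t0 ^ m.1 * t1 ^ m.2.1 * t2 ^ m.2.2.1 * t3 ^ m.2.2.2

/-- the nested polynomial with the given flat coefficient vector -/
def unfl : List Ex → List ℤ → P4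
  | (a0, a1, a2, a3) :: ms, c :: g => add4 (mono4 a0 a1 a2 a3 c) (unfl ms g)
  | _, _ => []

/-- `∑_j v_j g_j` for flat vectors -/
def comb1 : List ℤ → List (List ℤ) → List ℤ
  | c :: v, g :: G => ax1 c g (comb1 v G)
  | _, _ => []

theorem ev4_unfl (t0 t1 t2 t3 : ℝ) (ms : List Ex) (g : List ℤ) :
    ev4 t0 t1 t2 t3 (unfl ms g) = dotR g (ms.map (monoR t0 t1 t2 t3)) := by
  induction ms generalizing g with
  | nil => simp [unfl, dotR, ev4_nil]
  | cons m ms ih =>
    obtain ⟨a0, a1, a2, a3⟩ := m
    cases g with
    | nil => simp [unfl, dotR, ev4_nil]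
    | cons c g =>
      simp only [unfl, List.map_cons, dotR, ev4_add, ev4_mono4, ih, monoR]
      ring

theorem dotR_ax1 (c : ℤ) (p acc : List ℤ) (τ : List ℝ) :
    dotR (ax1 c p acc) τ = c * dotR p τ + dotR acc τ := by
  induction p generalizing acc τ with
  | nil => simp [ax1, axL, dotR]
  | cons a p ih =>
    cases acc with
    | nil =>
      cases τ with
      | nil => simp [ax1, axL, dotR]
      | cons y τ =>
        have h := ih [] τ
        simp only [ax1] at h
        simp only [ax1, axL, dotR, h]
        push_cast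
        ring
    | cons b q =>
      cases τ with
      | nil => simp [ax1, axL, dotR]
      | cons y τ =>
        have h := ih q τ
        simp only [ax1] at h
        simp only [ax1, axL, dotR, h]
        push_cast
        ring

theorem dotR_add1 (p q : List ℤ) (τ : List ℝ) : dotR (add1 p q) τ = dotR p τ + dotR q τ := by
  induction p generalizing q τ with
  | nil => simp [add1, addL, dotR]
  | cons a p ih =>
    cases q with
    | nil => simp [add1, addL, dotR]
    | cons b q =>
      cases τ with
      | nil => simp [add1, addL, dotR]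
      | cons y τ =>
        have h := ih q τ
        simp only [add1] at h
        simp only [add1, addL, dotR, h]
        push_cast
        ring

theorem dotR_zr1 (p : List ℤ) (h : zr1 p = true) (τ : List ℝ) : dotR p τ = 0 := by
  induction p generalizing τ with
  | nil => simp [dotR]
  | cons a p ih =>
    simp only [zr1, List.all_cons, Bool.and_eq_true] at h
    cases τ with
    | nil => simp [dotR]
    | cons y τ =>
      have ha : a = 0 := of_decide_eq_true h.1
      simp only [dotR, ih h.2 τ, ha]
      simp

theorem dotR_eq_of_zr1 (p q : List ℤ) (h : zr1 (ax1 (-1) q p) = true) (τ : List ℝ) :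
    dotR p τ = dotR q τ := by
  have := dotR_zr1 _ h τ
  rw [dotR_ax1] at this
  push_cast at this
  linarith

theorem dotR_comb1 (v : List ℤ) (G : List (List ℤ)) (τ : List ℝ) :
    dotR (comb1 v G) τ = dotR v (G.map (fun g => dotR g τ)) := by
  induction v generalizing G with
  | nil => simp [dotR, comb1]
  | cons c v ih =>
    cases G with
    | nil => simp [dotR, comb1]
    | cons g G => simp only [List.map, dotR, comb1, dotR_ax1, ih]

theorem dotR_nonneg (r : List ℤ) (τ : List ℝ) (hr : ∀ x ∈ r, 0 ≤ x) (hτ : ∀ y ∈ τ, 0 ≤ y) :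
    0 ≤ dotR r τ := by
  induction r generalizing τ with
  | nil => simp [dotR]
  | cons a r ih =>
    cases τ with
    | nil => simp [dotR]
    | cons y τ =>
      simp only [dotR]
      have ha : (0 : ℝ) ≤ (a : ℝ) := by exact_mod_cast hr a (by simp)
      have hy : 0 ≤ y := hτ y (by simp)
      exact add_nonneg (mul_nonneg ha hy)
        (ih τ (fun x hx => hr x (by simp [hx])) (fun z hz => hτ z (by simp [hz])))

theorem dotRR_nonneg (r τ : List ℝ) (hr : ∀ x ∈ r, 0 ≤ x) (hτ : ∀ y ∈ τ, 0 ≤ y) :
    0 ≤ dotRR r τ := by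
  induction r generalizing τ with
  | nil => simp [dotRR]
  | cons a r ih =>
    cases τ with
    | nil => simp [dotRR]
    | cons y τ =>
      simp only [dotRR]
      have ha : 0 ≤ a := hr a (by simp)
      have hy : 0 ≤ y := hτ y (by simp)
      exact add_nonneg (mul_nonneg ha hy)
        (ih τ (fun x hx => hr x (by simp [hx])) (fun z hz => hτ z (by simp [hz])))

theorem monoR_nonneg (t0 t1 t2 t3 : ℝ) (h0 : 0 ≤ t0) (h1 : 0 ≤ t1) (h2 : 0 ≤ t2) (h3 : 0 ≤ t3)
    (ms : List Ex) : ∀ y ∈ ms.map (monoR t0 t1 t2 t3), 0 ≤ y := by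
  intro y hy
  rw [List.mem_map] at hy
  obtain ⟨m, _, rfl⟩ := hy
  unfold monoR
  positivity

end Vale.Agent.P154
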