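import Vale.Agent.P154.R4.Cols

/-! # P154 q = 4: substitution of a polynomial for the outermost variable, checked step by step (Horner) -/

namespace Vale.Agent.P154

/-- `Q = [c_0, c_1, ...]`, `rs = [r_0, r_1, ...]` with `r_e = c_e + wp * r_(e+1)` -/
def chkHor (wp : P4) : P4 → List P4 → Bool
  | [c], [r] => zr4 (ax4 (-1) [c] r)
  | c :: p, r :: r' :: rs => zr4 (ax4 (-1) (add4 [c] (mul4 r' wp)) r) && chkHor wp p (r' :: rs)
  | _, _ => false

theorem ev4_of_chkHor (t0 t1 t2 t3 : ℝ) (wp Q r : P4) (rs : List P4)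
    (hc : chkHor wp Q (r :: rs) = true) :
    ev4 t0 t1 t2 t3 r = ev4 (ev4 t0 t1 t2 t3 wp) t1 t2 t3 Q := by
  induction Q generalizing r rs with
  | nil => simp [chkHor] at hc
  | cons c p ih =>
    have h1 : ev4 t0 t1 t2 t3 [c] = ev3 t1 t2 t3 c := by simp [ev4, evL]
    have h2 : ∀ S : ℝ, ev4 S t1 t2 t3 (c :: p) = ev3 t1 t2 t3 c + S * ev4 S t1 t2 t3 p := by
      intro S; simp [ev4, evL]
    cases rs with
    | nil =>
      cases p with
      | nil =>
        rw [chkHor] at hc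
        rw [ev4_eq_of_zr t0 t1 t2 t3 _ _ hc, h1, h2, ev4_nil, mul_zero, add_zero]
      | cons c' p' => simp [chkHor] at hc
    | cons r' rs' =>
      rw [chkHor, Bool.and_eq_true] at hc
      obtain ⟨ha, hb⟩ := hc
      rw [ev4_eq_of_zr t0 t1 t2 t3 _ _ ha, ev4_add, ev4_mul, h1, ih r' rs' hb, h2]
      ring

end Vale.Agent.P154
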