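import Vale.Agent.P154.R4.Defs

/-! # P154 q = 4: the kernels `KQ alQ`, `KQ (psK k)` through the elementary symmetric functions of `uQ a b` -/

namespace Vale.Agent.P154

open Finset

theorem ZQ_eq_e1 (a b : Fin 4 → ℝ) : ZQ a b = e1Q (uQ a b) := by
  unfold ZQ e1Q uQ
  rw [Fin.sum_univ_four]
  push_cast
  ring

private lemma kform_mgQ_eq (a b : Fin 4 → ℝ) (i : Fin 4) :
    mgQ a b i = 4 * uQ a b i / e1Q (uQ a b) - 1 := by
  rw [← ZQ_eq_e1]
  unfold mgQ uQ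
  ring

theorem KQ_al_eq (a b : Fin 4 → ℝ) (hZ : 0 < ZQ a b) :
    KQ alQ a b = e1Q (uQ a b) - 8 / 3 * e2Q (uQ a b) / e1Q (uQ a b) := by
  have hZ' : 0 < e1Q (uQ a b) := ZQ_eq_e1 a b ▸ hZ
  unfold KQ alQ
  rw [Fin.sum_univ_four]
  simp only [kform_mgQ_eq]
  rw [ZQ_eq_e1]
  generalize uQ a b = U at *
  unfold e2Q
  have h1 : e1Q U = U 0 + U 1 + U 2 + U 3 := rfl
  generalize e1Q U = Z at *
  generalize U 0 = u0 at *
  generalize U 1 = u1 at *
  generalize U 2 = u2 at *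
  generalize U 3 = u3 at *
  have hne : Z ≠ 0 := hZ'.ne'
  push_cast
  field_simp
  subst h1
  ring

theorem KQ_ps_eq (k : ℝ) (a b : Fin 4 → ℝ) (hZ : 0 < ZQ a b) :
    KQ (psK k) a b = (2 - k) * e1Q (uQ a b) + (16 * k / 3 - 8) * e2Q (uQ a b) / e1Q (uQ a b)
      + 16 * e3Q (uQ a b) / e1Q (uQ a b) ^ 2 - 64 * k / 9 * e2Q (uQ a b) ^ 2 / e1Q (uQ a b) ^ 3 := by
  have hZ' : 0 < e1Q (uQ a b) := ZQ_eq_e1 a b ▸ hZ
  unfold KQ psK alQ
  rw [Fin.sum_univ_four, Fin.sum_univ_four]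
  simp only [kform_mgQ_eq]
  rw [ZQ_eq_e1]
  generalize uQ a b = U at *
  unfold e2Q e3Q
  have h1 : e1Q U = U 0 + U 1 + U 2 + U 3 := rfl
  generalize e1Q U = Z at *
  generalize U 0 = u0 at *
  generalize U 1 = u1 at *
  generalize U 2 = u2 at *
  generalize U 3 = u3 at *
  have hne : Z ≠ 0 := hZ'.ne'
  push_cast
  field_simp
  subst h1
  ring

/-- range of the normalisation: `2/5 ≤ Z ≤ 14/5` if `a` is a deviation vector and `b ≥ -3/5` -/
theorem e1Q_range (a b : Fin 4 → ℝ) (ha0 : ∑ i, a i = 0) (ha : ∀ i, -1 ≤ a i) (hb0 : ∑ i, b i = 0)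
    (hb : ∀ i, -(3 / 5) ≤ b i) : 2 / 5 ≤ e1Q (uQ a b) ∧ e1Q (uQ a b) ≤ 14 / 5 := by
  rw [Fin.sum_univ_four] at ha0 hb0
  unfold e1Q uQ
  have a0 := ha 0
  have a1 := ha 1
  have a2 := ha 2
  have a3 := ha 3
  have b0 := hb 0
  have b1 := hb 1
  have b2 := hb 2
  have b3 := hb 3
  generalize a 0 = x0 at *
  generalize a 1 = x1 at *
  generalize a 2 = x2 at *
  generalize a 3 = x3 at *
  generalize b 0 = y0 at *
  generalize b 1 = y1 at *
  generalize b 2 = y2 at *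
  generalize b 3 = y3 at *
  constructor
  · have p0 : 0 ≤ (1 + x0) * (y0 + 3 / 5) := mul_nonneg (by linarith) (by linarith)
    have p1 : 0 ≤ (1 + x1) * (y1 + 3 / 5) := mul_nonneg (by linarith) (by linarith)
    have p2 : 0 ≤ (1 + x2) * (y2 + 3 / 5) := mul_nonneg (by linarith) (by linarith)
    have p3 : 0 ≤ (1 + x3) * (y3 + 3 / 5) := mul_nonneg (by linarith) (by linarith)
    nlinarith [p0, p1, p2, p3]
  · have p0 : 0 ≤ (1 + x0) * (9 / 5 - y0) := mul_nonneg (by linarith) (by linarith)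
    have p1 : 0 ≤ (1 + x1) * (9 / 5 - y1) := mul_nonneg (by linarith) (by linarith)
    have p2 : 0 ≤ (1 + x2) * (9 / 5 - y2) := mul_nonneg (by linarith) (by linarith)
    have p3 : 0 ≤ (1 + x3) * (9 / 5 - y3) := mul_nonneg (by linarith) (by linarith)
    nlinarith [p0, p1, p2, p3]

theorem uQ_nonneg (a b : Fin 4 → ℝ) (ha : ∀ i, -1 ≤ a i) (hb : ∀ i, -(3 / 5) ≤ b i) (i : Fin 4) :
    0 ≤ uQ a b i := by
  unfold uQ
  have h1 := ha i
  have h2 := hb i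
  have : 0 ≤ (1 + a i) * (1 + b i) := mul_nonneg (by linarith) (by linarith)
  linarith

theorem e2Q_nonneg (U : Fin 4 → ℝ) (h : ∀ i, 0 ≤ U i) : 0 ≤ e2Q U := by
  unfold e2Q
  have h0 := h 0
  have h1 := h 1
  have h2 := h 2
  have h3 := h 3
  positivity

theorem e3Q_nonneg (U : Fin 4 → ℝ) (h : ∀ i, 0 ≤ U i) : 0 ≤ e3Q U := by
  unfold e3Q
  have h0 := h 0
  have h1 := h 1
  have h2 := h 2
  have h3 := h 3
  positivity

end Vale.Agent.P154
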