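import Vale.Agent.P154.R4.Cols

/-!
# P154 q = 4: the row check by packing (Kronecker substitution)

`evZ W g = ∑ g_i W^i`.  The packed value of `∑_j v_j G_j` is `∑_j v_j evZ W G_j`; if all entries are smaller than `W / 2` in absolute value,
the entries are recovered as the balanced digits, so they are all nonnegative iff all digits are `< W / 2`.
-/

namespace Vale.Agent.P154

def evZ (W : ℤ) : List ℤ → ℤ
  | [] => 0
  | c :: g => c + W * evZ W g

def dotZ : List ℤ → List ℤ → ℤ
  | c :: v, g :: γ => c * g + dotZ v γ
  | _, _ => 0

def chkDig (W : ℤ) : ℕ → ℤ → Bool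
  | 0, _ => true
  | n + 1, N => decide (2 * (N % W) < W) && chkDig W n (N / W)

theorem evZ_ax1 (W c : ℤ) (p acc : List ℤ) : evZ W (ax1 c p acc) = c * evZ W p + evZ W acc := by
  induction p generalizing acc with
  | nil => simp [ax1, axL, evZ]
  | cons a p ih =>
    cases acc with
    | nil =>
      have h := ih []
      simp only [ax1, axL, evZ] at h ⊢
      rw [h]
      ring
    | cons b q =>
      have h := ih q
      simp only [ax1, axL, evZ] at h ⊢
      rw [h]
      ring

theorem evZ_comb1 (W : ℤ) (v : List ℤ) (G : List (List ℤ)) :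
    evZ W (comb1 v G) = dotZ v (G.map (evZ W)) := by
  induction v generalizing G with
  | nil => simp [comb1, dotZ, evZ]
  | cons c v ih =>
    cases G with
    | nil => simp [comb1, dotZ, evZ]
    | cons g G =>
      simp only [comb1, List.map_cons, dotZ]
      rw [evZ_ax1, ih]

theorem length_ax1 (c : ℤ) (p acc : List ℤ) :
    (ax1 c p acc).length = max p.length acc.length := by
  induction p generalizing acc with
  | nil => simp [ax1, axL]
  | cons a p ih =>
    cases acc with
    | nil =>
      have h := ih []
      simp only [ax1, axL, List.length_cons, List.length_nil] at h ⊢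
      rw [h]
      simp
    | cons b q =>
      have h := ih q
      simp only [ax1, axL, List.length_cons] at h ⊢
      rw [h]
      omega

theorem length_comb1 (n : ℕ) (v : List ℤ) (G : List (List ℤ)) (h : ∀ g ∈ G, g.length ≤ n) :
    (comb1 v G).length ≤ n := by
  induction v generalizing G with
  | nil => simp [comb1]
  | cons c v ih =>
    cases G with
    | nil => simp [comb1]
    | cons g G =>
      simp only [comb1]
      rw [length_ax1]
      exact max_le (h g (by simp)) (ih G fun g' hg' => h g' (by simp [hg']))

theorem bound_ax1 (M V B c : ℤ) (hM0 : 0 ≤ M) (hV0 : 0 ≤ V) (hB0 : 0 ≤ B) (hc : |c| ≤ V)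
    (p acc : List ℤ) (hp : ∀ x ∈ p, |x| ≤ M) (hacc : ∀ x ∈ acc, |x| ≤ B) :
    ∀ x ∈ ax1 c p acc, |x| ≤ V * M + B := by
  have hVM : 0 ≤ V * M := mul_nonneg hV0 hM0
  have hmul : ∀ a : ℤ, |a| ≤ M → |c * a| ≤ V * M := by
    intro a ha
    rw [abs_mul]
    exact mul_le_mul hc ha (abs_nonneg a) hV0
  induction p generalizing acc with
  | nil =>
    intro x hx
    simp only [ax1, axL] at hx
    have := hacc x hx
    linarith
  | cons a p ih =>
    have ha : |a| ≤ M := hp a (by simp)
    have hp' : ∀ x ∈ p, |x| ≤ M := fun x hx => hp x (by simp [hx])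
    cases acc with
    | nil =>
      intro x hx
      simp only [ax1, axL, List.mem_cons] at hx
      rcases hx with rfl | hx
      · have := hmul a ha
        linarith
      · exact ih [] hp' (by simp) x hx
    | cons b q =>
      intro x hx
      simp only [ax1, axL, List.mem_cons] at hx
      rcases hx with rfl | hx
      · have h1 := hmul a ha
        have h2 : |b| ≤ B := hacc b (by simp)
        calc |c * a + b| ≤ |c * a| + |b| := abs_add_le _ _
          _ ≤ V * M + B := add_le_add h1 h2
      · exact ih q hp' (fun y hy => hacc y (by simp [hy])) x hx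

theorem bound_comb1 (M V : ℤ) (hM0 : 0 ≤ M) (hV0 : 0 ≤ V) (v : List ℤ) (G : List (List ℤ))
    (hM : ∀ g ∈ G, ∀ x ∈ g, |x| ≤ M) (hV : ∀ c ∈ v, |c| ≤ V) :
    ∀ x ∈ comb1 v G, |x| ≤ G.length * (V * M) := by
  have hVM : 0 ≤ V * M := mul_nonneg hV0 hM0
  induction v generalizing G with
  | nil =>
    intro x hx
    simp [comb1] at hx
  | cons c v ih =>
    cases G with
    | nil =>
      intro x hx
      simp [comb1] at hx
    | cons g G =>
      intro x hx
      simp only [comb1] at hx
      have hrec := ih G (fun g' hg' => hM g' (by simp [hg'])) (fun c' hc' => hV c' (by simp [hc']))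
      have hB0 : (0 : ℤ) ≤ G.length * (V * M) := mul_nonneg (by positivity) hVM
      have h := bound_ax1 M V (G.length * (V * M)) c hM0 hV0 hB0 (hV c (by simp)) g (comb1 v G)
        (hM g (by simp)) hrec x hx
      simp only [List.length_cons]
      push_cast
      linarith

end Vale.Agent.P154
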