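import Vale.Agent.P154.R4.Kron

/-! # P154 q = 4: digits of the packed value -/

namespace Vale.Agent.P154

theorem nonneg_of_chkDig (W B : ℤ) (hB : 2 * B < W) (r : List ℤ) (hr : ∀ x ∈ r, |x| ≤ B) (n : ℕ)
    (hn : r.length ≤ n) (hc : chkDig W n (evZ W r) = true) : ∀ x ∈ r, 0 ≤ x := by
  induction r generalizing n with
  | nil => intro x hx; simp at hx
  | cons c r' ih =>
    cases n with
    | zero => simp at hn
    | succ n' =>
      have hcB : |c| ≤ B := hr c (by simp)
      have hB0 : 0 ≤ B := le_trans (abs_nonneg c) hcB
      have hW : 0 < W := by linarith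
      have hc1 : c ≤ B := le_trans (le_abs_self c) hcB
      have hc2 : -B ≤ c := by
        have := neg_abs_le c
        linarith
      have hev : evZ W (c :: r') = c + W * evZ W r' := rfl
      rw [hev] at hc
      have hc' : (decide (2 * ((c + W * evZ W r') % W) < W) &&
          chkDig W n' ((c + W * evZ W r') / W)) = true := hc
      rw [Bool.and_eq_true] at hc'
      obtain ⟨h1', h2⟩ := hc'
      have h1 : 2 * ((c + W * evZ W r') % W) < W := of_decide_eq_true h1'
      have hmod : (c + W * evZ W r') % W = c % W := Int.add_mul_emod_self_left c W (evZ W r')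
      rw [hmod] at h1
      have hc0 : 0 ≤ c := by
        by_contra hneg
        have hneg : c < 0 := not_le.mp hneg
        have h3 : c % W = c + W := by
          have h4 : (c + W) % W = c % W := Int.add_emod_right c W
          rw [← h4]
          exact Int.emod_eq_of_lt (by linarith) (by linarith)
        rw [h3] at h1
        linarith
      have hdiv : (c + W * evZ W r') / W = evZ W r' := by
        rw [Int.add_mul_ediv_left c (evZ W r') (ne_of_gt hW), Int.ediv_eq_zero_of_lt hc0 (by linarith)]
        simp
      rw [hdiv] at h2
      have ih' := ih (fun x hx => hr x (by simp [hx])) n' (by simpa using hn) h2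
      intro x hx
      rcases List.mem_cons.mp hx with rfl | hx'
      · exact hc0
      · exact ih' x hx'

end Vale.Agent.P154
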