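import Vale.Agent.P154.R4.KronB

/-! # P154 q = 4: the packed row check, assembled -/

namespace Vale.Agent.P154

/-- boolean version of all side conditions -/
def kronSide (W M V : ℤ) (n : ℕ) (G : List (List ℤ)) : Bool :=
  decide (0 ≤ M) && decide (0 ≤ V) && decide (2 * (G.length * (V * M)) < W) &&
    G.all (fun g => decide (g.length ≤ n) && g.all (fun x => decide (|x| ≤ M)))

def kronRows (W V : ℤ) (n : ℕ) (Npk : List ℤ) (vs : List (List ℤ)) : Bool :=
  vs.all (fun v => v.all (fun c => decide (|c| ≤ V)) && chkDig W n (dotZ v Npk))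

theorem rowPos_of_kron (W M V : ℤ) (n : ℕ) (G : List (List ℤ)) (Npk : List ℤ)
    (hN : Npk = G.map (evZ W)) (hs : kronSide W M V n G = true) (vs : List (List ℤ))
    (hk : kronRows W V n Npk vs = true) : ∀ v ∈ vs, RowPos G v := by
  unfold kronSide at hs
  simp only [Bool.and_eq_true, decide_eq_true_eq, List.all_eq_true] at hs
  obtain ⟨⟨⟨hM0, hV0⟩, hW⟩, hG⟩ := hs
  unfold kronRows at hk
  simp only [Bool.and_eq_true, decide_eq_true_eq, List.all_eq_true] at hk
  intro v hv
  obtain ⟨hvV, hdig⟩ := hk v hv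
  have hlen : (comb1 v G).length ≤ n := length_comb1 n v G (fun g hg => (hG g hg).1)
  have hbd := bound_comb1 M V hM0 hV0 v G (fun g hg => (hG g hg).2) hvV
  have hev : evZ W (comb1 v G) = dotZ v Npk := by rw [hN, evZ_comb1]
  exact nonneg_of_chkDig W (G.length * (V * M)) hW (comb1 v G) hbd n hlen (by rw [hev]; exact hdig)

end Vale.Agent.P154
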