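import Vale.Agent.P154.R4.BilC
import Vale.Agent.P154.R4.Link

/-! # P154 q = 4: from the three kernel checks to an inequality for all pairs of deviation vectors -/

namespace Vale.Agent.P154

open Finset

def cA0 : P4 := lin4 1 1 1 1 0
def cA1 : P4 := lin4 1 1 1 0 0
def cA2 : P4 := lin4 1 1 0 0 0
def cA3 : P4 := lin4 1 0 0 0 0
def cL4 : P4 := lin4 4 3 2 1 0
def cB0 : P4 := lin4 10 9 8 7 0
def cB1 : P4 := lin4 10 9 8 1 0
def cB2 : P4 := lin4 10 9 2 1 0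
def cB3 : P4 := lin4 10 3 2 1 0

/-- `Ld`: diagonal terms, `Xs`, `Xt`: the two sides of the product terms.
With `A = 1 + a` (chamber coordinates `s`, `4 s0 + 3 s1 + 2 s2 + s3 = 4`) and `30 (1 + b) = 12 + 6 (3 + 5 b)`
(chamber coordinates `t` of `3 + 5 b ≥ 0`, `4 t0 + 3 t1 + 2 t2 + t3 = 12`). -/
theorem master (D : ℕ) (Ld : TL) (Xs Xt : List TL) (rows : List Row) (G : List P4)
    (h1 : rowsOK G rows = true)
    (h2 : chkH D cA0 cA1 cA2 cA3 cL4 rows 0 (dgS Ld ++ Xs) = true)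
    (h3 : chkG D cB0 cB1 cB2 cB3 cL4 G (dgT Ld ++ Xt) = true)
    (hlen : Xs.length = Xt.length)
    (a b : Fin 4 → ℝ) (ha0 : ∑ i, a i = 0) (ha : ∀ i, -1 ≤ a i) (hb0 : ∑ i, b i = 0)
    (hb : ∀ i, -(3 / 5) ≤ b i) :
    0 ≤ ∑ σ : Equiv.Perm (Fin 4),
        sm D Ld (120 * uQ a (fun i => b (σ i)) 0) (120 * uQ a (fun i => b (σ i)) 1)
          (120 * uQ a (fun i => b (σ i)) 2) (120 * uQ a (fun i => b (σ i)) 3) 48
      + dotRR (Xs.map (fun l => sm D l (1 + a 0) (1 + a 1) (1 + a 2) (1 + a 3) 4))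
          (Xt.map (fun l => sm D l (30 * (1 + b 0)) (30 * (1 + b 1)) (30 * (1 + b 2))
            (30 * (1 + b 3)) 12)) := by
  set A : Fin 4 → ℝ := fun i => 1 + a i with hAdef
  set C : Fin 4 → ℝ := fun i => 3 + 5 * b i with hCdef
  set B : Fin 4 → ℝ := fun i => 30 * (1 + b i) with hBdef
  have hA0 : ∀ i, 0 ≤ A i := fun i => by
    have := ha i
    simp only [hAdef]
    linarith
  have hC0 : ∀ i, 0 ≤ C i := fun i => by
    have := hb i
    simp only [hCdef]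
    linarith
  have hsA : ∑ i, A i = 4 := by
    simp only [hAdef, Finset.sum_add_distrib, ha0]
    simp
  have hsC : ∑ i, C i = 12 := by
    simp only [hCdef, Finset.sum_add_distrib, ← Finset.mul_sum, hb0]
    simp
    norm_num
  have hBC : ∀ i, B i = 12 + 6 * C i := fun i => by
    simp only [hBdef, hCdef]
    ring
  obtain ⟨τ, s0, s1, s2, s3, hs0, hs1, hs2, hs3, hsum, e0, e1, e2, e3⟩ := cham_perm A hA0
  obtain ⟨τ', t0, t1, t2, t3, ht0, ht1, ht2, ht3, htsum, f0, f1, f2, f3⟩ := cham_perm C hC0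
  rw [hsA] at hsum
  rw [hsC] at htsum
  have hpos := pos_main D cA0 cA1 cA2 cA3 cL4 cB0 cB1 cB2 cB3 cL4 rows G (dgS Ld ++ Xs)
    (dgT Ld ++ Xt) h1 h2 h3 (by simp [dgS, dgT, hlen]) s0 s1 s2 s3 t0 t1 t2 t3 hs0 hs1 hs2 hs3
    ht0 ht1 ht2 ht3
  have vA0 : ev4 s0 s1 s2 s3 cA0 = A (τ 0) := by
    rw [cA0, ev4_lin, e0]; push_cast; ring
  have vA1 : ev4 s0 s1 s2 s3 cA1 = A (τ 1) := by
    rw [cA1, ev4_lin, e1]; push_cast; ring
  have vA2 : ev4 s0 s1 s2 s3 cA2 = A (τ 2) := by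
    rw [cA2, ev4_lin, e2]; push_cast; ring
  have vA3 : ev4 s0 s1 s2 s3 cA3 = A (τ 3) := by
    rw [cA3, ev4_lin, e3]; push_cast; ring
  have vLs : ev4 s0 s1 s2 s3 cL4 = 4 := by
    rw [cL4, ev4_lin, ← hsum]; push_cast; ring
  have vLt : ev4 t0 t1 t2 t3 cL4 = 12 := by
    rw [cL4, ev4_lin, ← htsum]; push_cast; ring
  have vB0 : ev4 t0 t1 t2 t3 cB0 = B (τ' 0) := by
    rw [cB0, ev4_lin, hBC, f0, ← htsum]; push_cast; ring
  have vB1 : ev4 t0 t1 t2 t3 cB1 = B (τ' 1) := by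
    rw [cB1, ev4_lin, hBC, f1, ← htsum]; push_cast; ring
  have vB2 : ev4 t0 t1 t2 t3 cB2 = B (τ' 2) := by
    rw [cB2, ev4_lin, hBC, f2, ← htsum]; push_cast; ring
  have vB3 : ev4 t0 t1 t2 t3 cB3 = B (τ' 3) := by
    rw [cB3, ev4_lin, hBC, f3, ← htsum]; push_cast; ring
  rw [vA0, vA1, vA2, vA3, vLs, vLt, vB0, vB1, vB2, vB3] at hpos
  have cA : ∀ l : TL, sm D l (A (τ 0)) (A (τ 1)) (A (τ 2)) (A (τ 3)) 4
      = sm D l (A 0) (A 1) (A 2) (A 3) 4 := fun l =>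
    sm_congr D l _ _ _ _ _ _ _ _ _ (fun p q r u => pmV_perm A τ p q r u)
  have cB : ∀ l : TL, sm D l (B (τ' 0)) (B (τ' 1)) (B (τ' 2)) (B (τ' 3)) 12
      = sm D l (B 0) (B 1) (B 2) (B 3) 12 := fun l =>
    sm_congr D l _ _ _ _ _ _ _ _ _ (fun p q r u => pmV_perm B τ' p q r u)
  simp only [cA, cB] at hpos
  rw [List.map_append, List.map_append, dotRR_append _ _ _ _ (by simp [dgS, dgT]),
    dotRR_diag] at hpos
  have hu : ∀ (σ : Equiv.Perm (Fin 4)) (i : Fin 4),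
      120 * uQ a (fun i => b (σ i)) i = A i * B (σ i) := fun σ i => by
    simp only [uQ, hAdef, hBdef]
    ring
  simp only [hu]
  have h48 : (48 : ℝ) = 4 * 12 := by norm_num
  rw [h48]
  exact hpos

end Vale.Agent.P154
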