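import Vale.Agent.P154.R4.Defs

/-! # P154 q = 4: `pmV` as a sum over permutations, invariance, and the diagonalisation of the group average -/

namespace Vale.Agent.P154

open Finset

theorem pmV_eq_sum (A : Fin 4 → ℝ) (κ : Fin 4 → ℕ) :
    pmV A (κ 0) (κ 1) (κ 2) (κ 3) = ∑ τ : Equiv.Perm (Fin 4), ∏ i, A (τ i) ^ κ i := by
  simp only [Finset.univ_perm_fin_succ, Finset.sum_map, Equiv.coe_toEmbedding, Fintype.sum_prod_type,
    Fin.prod_univ_succ, Equiv.Perm.decomposeFin_symm_apply_zero,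
    Equiv.Perm.decomposeFin_symm_apply_succ, Fin.sum_univ_succ, Finset.univ_unique, Finset.sum_singleton,
    Finset.prod_singleton]
  simp only [Equiv.swap_apply_def, Fin.default_eq_zero, Equiv.Perm.default_eq, Equiv.Perm.coe_one, id_eq,
    Fin.succ_zero_eq_one, Fin.succ_one_eq_two, Fin.isValue, Fin.reduceSucc, Fin.reduceEq, if_true, if_false]
  unfold pmV pm4 pm3 pm2
  ring

private theorem pmV_eq_sum' (A : Fin 4 → ℝ) (a b c d : ℕ) :
    pmV A a b c d = ∑ τ : Equiv.Perm (Fin 4), ∏ i, A (τ i) ^ (![a, b, c, d] : Fin 4 → ℕ) i :=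
  pmV_eq_sum A ![a, b, c, d]

theorem pmV_perm (A : Fin 4 → ℝ) (τ : Equiv.Perm (Fin 4)) (a b c d : ℕ) :
    pmV (fun i => A (τ i)) a b c d = pmV A a b c d := by
  rw [pmV_eq_sum', pmV_eq_sum']
  exact Fintype.sum_equiv (Equiv.mulLeft τ) _ _ (fun σ => rfl)

/-- diagonalisation: the sum over all relative permutations of `pmV` of the product vector factorises -/
theorem pmV_sum_perm (A B : Fin 4 → ℝ) (a b c d : ℕ) :
    ∑ σ : Equiv.Perm (Fin 4), pmV (fun i => A i * B (σ i)) a b c d = pmV A a b c d * pmV B a b c d := by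
  simp only [pmV_eq_sum']
  rw [Finset.sum_comm, Finset.sum_mul]
  refine Finset.sum_congr rfl fun τ _ => ?_
  rw [Finset.mul_sum]
  refine Fintype.sum_equiv (Equiv.mulRight τ) _ _ (fun σ => ?_)
  simp only [mul_pow, Finset.prod_mul_distrib]
  rfl

end Vale.Agent.P154
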