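import Mathlib

/-!
# P154 q = 4: polynomial arithmetic on nested lists (for kernel computation)

A polynomial in one variable over a coefficient type `R` is the list of its coefficients (constant term first).
`P4 = List (List (List (List ℤ)))` are the polynomials in four variables `x0 x1 x2 x3` (`x0` outermost).
`evL`, `ev1 .. ev4` are the evaluations in `ℝ`.
-/

namespace Vale.Agent.P154

def addL {R : Type} (add : R → R → R) : List R → List R → List R
  | [], q => q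
  | a :: p, [] => a :: p
  | a :: p, b :: q => add a b :: addL add p q

def mulL {R : Type} (zero : R) (add mul : R → R → R) : List R → List R → List R
  | [], _ => []
  | a :: p, q => addL add (q.map (mul a)) (zero :: mulL zero add mul p q)

/-- `axL f g p acc`: coefficientwise `f a b` (meaning `c * a + b`), `g a` (meaning `c * a`) where `acc` has ended -/
def axL {R : Type} (f : R → R → R) (g : R → R) : List R → List R → List R
  | [], acc => acc
  | a :: p, [] => g a :: axL f g p []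
  | a :: p, b :: q => f a b :: axL f g p q

noncomputable def evL {R : Type} (ev : R → ℝ) (x : ℝ) : List R → ℝ
  | [] => 0
  | a :: p => ev a + x * evL ev x p

theorem evL_addL {R : Type} (ev : R → ℝ) (x : ℝ) (add : R → R → R)
    (h : ∀ a b, ev (add a b) = ev a + ev b) (p q : List R) :
    evL ev x (addL add p q) = evL ev x p + evL ev x q := by
  induction p generalizing q with
  | nil => simp [addL, evL]
  | cons a p ih =>
    cases q with
    | nil => simp [addL, evL]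
    | cons b q =>
      simp only [addL, evL, h, ih]
      ring

theorem evL_map {R : Type} (ev : R → ℝ) (x : ℝ) (f : R → R) (c : ℝ)
    (h : ∀ b, ev (f b) = c * ev b) (q : List R) :
    evL ev x (q.map f) = c * evL ev x q := by
  induction q with
  | nil => simp [evL]
  | cons b q ih =>
    simp only [List.map, evL, h, ih]
    ring

theorem evL_mulL {R : Type} (ev : R → ℝ) (x : ℝ) (zero : R) (add mul : R → R → R)
    (h0 : ev zero = 0) (ha : ∀ a b, ev (add a b) = ev a + ev b)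
    (hm : ∀ a b, ev (mul a b) = ev a * ev b) (p q : List R) :
    evL ev x (mulL zero add mul p q) = evL ev x p * evL ev x q := by
  induction p with
  | nil => simp [mulL, evL]
  | cons a p ih =>
    simp only [mulL, evL_addL ev x add ha, evL_map ev x (mul a) (ev a) (hm a), evL, h0, ih]
    ring

theorem evL_axL {R : Type} (ev : R → ℝ) (x c : ℝ) (f : R → R → R) (g : R → R)
    (hf : ∀ a b, ev (f a b) = c * ev a + ev b) (hg : ∀ a, ev (g a) = c * ev a) (p acc : List R) :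
    evL ev x (axL f g p acc) = c * evL ev x p + evL ev x acc := by
  induction p generalizing acc with
  | nil => simp [axL, evL]
  | cons a p ih =>
    cases acc with
    | nil =>
      simp only [axL, evL, hg, ih]
      ring
    | cons b q =>
      simp only [axL, evL, hf, ih]
      ring

theorem evL_nonneg {R : Type} (ev : R → ℝ) (x : ℝ) (hx : 0 ≤ x) (t : R → Bool)
    (h : ∀ a, t a = true → 0 ≤ ev a) (p : List R) (hp : p.all t = true) : 0 ≤ evL ev x p := by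
  induction p with
  | nil => simp [evL]
  | cons a p ih =>
    simp only [List.all_cons, Bool.and_eq_true] at hp
    simp only [evL]
    exact add_nonneg (h a hp.1) (mul_nonneg hx (ih hp.2))

theorem evL_zero {R : Type} (ev : R → ℝ) (x : ℝ) (t : R → Bool)
    (h : ∀ a, t a = true → ev a = 0) (p : List R) (hp : p.all t = true) : evL ev x p = 0 := by
  induction p with
  | nil => simp [evL]
  | cons a p ih =>
    simp only [List.all_cons, Bool.and_eq_true] at hp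
    simp only [evL, h a hp.1, ih hp.2]
    ring

abbrev P1 := List ℤ
abbrev P2 := List P1
abbrev P3 := List P2
abbrev P4 := List P3

def add1 : P1 → P1 → P1 := addL (fun a b => a + b)
def add2 : P2 → P2 → P2 := addL add1
def add3 : P3 → P3 → P3 := addL add2
def add4 : P4 → P4 → P4 := addL add3

def mul1 : P1 → P1 → P1 := mulL 0 (fun a b => a + b) (fun a b => a * b)
def mul2 : P2 → P2 → P2 := mulL [] add1 mul1
def mul3 : P3 → P3 → P3 := mulL [] add2 mul2
def mul4 : P4 → P4 → P4 := mulL [] add3 mul3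

/-- `ax4 c p acc = c * p + acc` -/
def ax1 (c : ℤ) : P1 → P1 → P1 := axL (fun a b => c * a + b) (fun a => c * a)
def ax2 (c : ℤ) : P2 → P2 → P2 := axL (ax1 c) (fun a => ax1 c a [])
def ax3 (c : ℤ) : P3 → P3 → P3 := axL (ax2 c) (fun a => ax2 c a [])
def ax4 (c : ℤ) : P4 → P4 → P4 := axL (ax3 c) (fun a => ax3 c a [])

noncomputable def ev1 (x3 : ℝ) : P1 → ℝ := evL (fun c : ℤ => (c : ℝ)) x3
noncomputable def ev2 (x2 x3 : ℝ) : P2 → ℝ := evL (ev1 x3) x2
noncomputable def ev3 (x1 x2 x3 : ℝ) : P3 → ℝ := evL (ev2 x2 x3) x1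
noncomputable def ev4 (x0 x1 x2 x3 : ℝ) : P4 → ℝ := evL (ev3 x1 x2 x3) x0

def nn1 (p : P1) : Bool := p.all (fun c => decide (0 ≤ c))
def nn2 (p : P2) : Bool := p.all nn1
def nn3 (p : P3) : Bool := p.all nn2
def nn4 (p : P4) : Bool := p.all nn3

def zr1 (p : P1) : Bool := p.all (fun c => decide (c = 0))
def zr2 (p : P2) : Bool := p.all zr1
def zr3 (p : P3) : Bool := p.all zr2
def zr4 (p : P4) : Bool := p.all zr3

def pow4 (p : P4) : ℕ → P4
  | 0 => [[[[1]]]]
  | n + 1 => mul4 p (pow4 p n)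

/-- constant polynomial -/
def cst4 (c : ℤ) : P4 := [[[[c]]]]

/-- `a0 x0 + a1 x1 + a2 x2 + a3 x3 + c` -/
def lin4 (a0 a1 a2 a3 c : ℤ) : P4 := [[[[c, a3], [a2]], [[a1]]], [[[a0]]]]

/-- composition of a univariate integer polynomial with a polynomial in four variables (Horner) -/
def cmp4 (x : P4) : List ℤ → P4
  | [] => []
  | a :: c => add4 (cst4 a) (mul4 x (cmp4 x c))

section sound

variable (x0 x1 x2 x3 : ℝ)

theorem ev1_add (p q : P1) : ev1 x3 (add1 p q) = ev1 x3 p + ev1 x3 q :=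
  evL_addL _ _ _ (fun a b => by push_cast; ring) p q
theorem ev2_add (p q : P2) : ev2 x2 x3 (add2 p q) = ev2 x2 x3 p + ev2 x2 x3 q :=
  evL_addL _ _ _ (ev1_add x3) p q
theorem ev3_add (p q : P3) : ev3 x1 x2 x3 (add3 p q) = ev3 x1 x2 x3 p + ev3 x1 x2 x3 q :=
  evL_addL _ _ _ (ev2_add x2 x3) p q
theorem ev4_add (p q : P4) : ev4 x0 x1 x2 x3 (add4 p q) = ev4 x0 x1 x2 x3 p + ev4 x0 x1 x2 x3 q :=
  evL_addL _ _ _ (ev3_add x1 x2 x3) p q

theorem ev1_mul (p q : P1) : ev1 x3 (mul1 p q) = ev1 x3 p * ev1 x3 q :=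
  evL_mulL _ _ _ _ _ (by simp) (fun a b => by push_cast; ring) (fun a b => by push_cast; ring) p q
theorem ev2_mul (p q : P2) : ev2 x2 x3 (mul2 p q) = ev2 x2 x3 p * ev2 x2 x3 q :=
  evL_mulL _ _ _ _ _ (by simp [ev1, evL]) (ev1_add x3) (ev1_mul x3) p q
theorem ev3_mul (p q : P3) : ev3 x1 x2 x3 (mul3 p q) = ev3 x1 x2 x3 p * ev3 x1 x2 x3 q :=
  evL_mulL _ _ _ _ _ (by simp [ev2, evL]) (ev2_add x2 x3) (ev2_mul x2 x3) p q
theorem ev4_mul (p q : P4) : ev4 x0 x1 x2 x3 (mul4 p q) = ev4 x0 x1 x2 x3 p * ev4 x0 x1 x2 x3 q :=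
  evL_mulL _ _ _ _ _ (by simp [ev3, evL]) (ev3_add x1 x2 x3) (ev3_mul x1 x2 x3) p q

theorem ev1_ax (c : ℤ) (p q : P1) : ev1 x3 (ax1 c p q) = c * ev1 x3 p + ev1 x3 q :=
  evL_axL _ _ _ _ _ (fun a b => by push_cast; ring) (fun a => by push_cast; ring) p q
theorem ev2_ax (c : ℤ) (p q : P2) : ev2 x2 x3 (ax2 c p q) = c * ev2 x2 x3 p + ev2 x2 x3 q :=
  evL_axL _ _ _ _ _ (ev1_ax x3 c) (fun a => by rw [ev1_ax]; simp [ev1, evL]) p q
theorem ev3_ax (c : ℤ) (p q : P3) : ev3 x1 x2 x3 (ax3 c p q) = c * ev3 x1 x2 x3 p + ev3 x1 x2 x3 q :=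
  evL_axL _ _ _ _ _ (ev2_ax x2 x3 c) (fun a => by rw [ev2_ax]; simp [ev2, evL]) p q
theorem ev4_ax (c : ℤ) (p q : P4) :
    ev4 x0 x1 x2 x3 (ax4 c p q) = c * ev4 x0 x1 x2 x3 p + ev4 x0 x1 x2 x3 q :=
  evL_axL _ _ _ _ _ (ev3_ax x1 x2 x3 c) (fun a => by rw [ev3_ax]; simp [ev3, evL]) p q

theorem ev4_nil : ev4 x0 x1 x2 x3 [] = 0 := rfl

theorem ev4_cst (c : ℤ) : ev4 x0 x1 x2 x3 (cst4 c) = c := by
  simp [cst4, ev4, ev3, ev2, ev1, evL]

theorem ev4_lin (a0 a1 a2 a3 c : ℤ) :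
    ev4 x0 x1 x2 x3 (lin4 a0 a1 a2 a3 c) = a0 * x0 + a1 * x1 + a2 * x2 + a3 * x3 + c := by
  simp [lin4, ev4, ev3, ev2, ev1, evL]
  ring

theorem ev4_pow (p : P4) (n : ℕ) : ev4 x0 x1 x2 x3 (pow4 p n) = ev4 x0 x1 x2 x3 p ^ n := by
  induction n with
  | zero => simp [pow4, ev4, ev3, ev2, ev1, evL]
  | succ n ih => rw [pow4, ev4_mul, ih]; ring

theorem ev4_cmp (x : P4) (c : List ℤ) :
    ev4 x0 x1 x2 x3 (cmp4 x c) = ev1 (ev4 x0 x1 x2 x3 x) c := by
  induction c with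
  | nil => simp [cmp4, ev4, ev1, evL]
  | cons a c ih =>
    rw [cmp4, ev4_add, ev4_cst, ev4_mul, ih]
    simp [ev1, evL]

theorem ev1_nonneg (h3 : 0 ≤ x3) (p : P1) (hp : nn1 p = true) : 0 ≤ ev1 x3 p :=
  evL_nonneg _ _ h3 _ (fun a ha => by exact_mod_cast of_decide_eq_true ha) p hp
theorem ev2_nonneg (h2 : 0 ≤ x2) (h3 : 0 ≤ x3) (p : P2) (hp : nn2 p = true) : 0 ≤ ev2 x2 x3 p :=
  evL_nonneg _ _ h2 _ (ev1_nonneg x3 h3) p hp
theorem ev3_nonneg (h1 : 0 ≤ x1) (h2 : 0 ≤ x2) (h3 : 0 ≤ x3) (p : P3) (hp : nn3 p = true) :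
    0 ≤ ev3 x1 x2 x3 p :=
  evL_nonneg _ _ h1 _ (ev2_nonneg x2 x3 h2 h3) p hp
theorem ev4_nonneg (h0 : 0 ≤ x0) (h1 : 0 ≤ x1) (h2 : 0 ≤ x2) (h3 : 0 ≤ x3) (p : P4)
    (hp : nn4 p = true) : 0 ≤ ev4 x0 x1 x2 x3 p :=
  evL_nonneg _ _ h0 _ (ev3_nonneg x1 x2 x3 h1 h2 h3) p hp

theorem ev1_zero (p : P1) (hp : zr1 p = true) : ev1 x3 p = 0 :=
  evL_zero _ _ _ (fun a ha => by exact_mod_cast of_decide_eq_true ha) p hp
theorem ev2_zero (p : P2) (hp : zr2 p = true) : ev2 x2 x3 p = 0 :=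
  evL_zero _ _ _ (ev1_zero x3) p hp
theorem ev3_zero (p : P3) (hp : zr3 p = true) : ev3 x1 x2 x3 p = 0 :=
  evL_zero _ _ _ (ev2_zero x2 x3) p hp
theorem ev4_zero (p : P4) (hp : zr4 p = true) : ev4 x0 x1 x2 x3 p = 0 :=
  evL_zero _ _ _ (ev3_zero x1 x2 x3) p hp

/-- equality test -/
theorem ev4_eq_of_zr (p q : P4) (h : zr4 (ax4 (-1) q p) = true) :
    ev4 x0 x1 x2 x3 p = ev4 x0 x1 x2 x3 q := by
  have := ev4_zero x0 x1 x2 x3 _ h
  rw [ev4_ax] at this
  push_cast at this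
  linarith

end sound

end Vale.Agent.P154
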