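import Vale.Agent.P154.R4.TabB

/-! # P154 q = 4: top degree entries and linear combinations of table entries -/

namespace Vale.Agent.P154

/-- direct check of the entries of top degree against polynomials `f κ` -/
def chkTop (D : ℕ) (f : Ex → P4) (ms : List Ex) (T : Tb) : Bool :=
  T.all (fun p => decide (p.1.1 + p.1.2.1 + p.1.2.2.1 + p.1.2.2.2 = D) && zr4 (ax4 (-1) (f p.1) (unfl ms p.2)))

theorem good_of_chkTop (D : ℕ) (f : Ex → P4) (ms : List Ex) (T : Tb) (hc : chkTop D f ms T = true)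
    (t0 t1 t2 t3 x y z w h : ℝ)
    (hf : ∀ k : Ex, ev4 t0 t1 t2 t3 (f k) = pm4 x y z w k.1 k.2.1 k.2.2.1 k.2.2.2) :
    ∀ p ∈ T, GoodE D x y z w h (ms.map (monoR t0 t1 t2 t3)) p := by
  intro p hp
  unfold chkTop at hc
  rw [List.all_eq_true] at hc
  have h1 := hc p hp
  rw [Bool.and_eq_true, decide_eq_true_eq] at h1
  obtain ⟨hD, hz⟩ := h1
  have h2 := ev4_eq_of_zr t0 t1 t2 t3 _ _ hz
  rw [ev4_unfl, hf] at h2
  unfold GoodE
  rw [h2, hD, Nat.sub_self, pow_zero, mul_one]

/-- linear combinations of table entries -/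
def cmbT (T : Tb) : TL → List ℤ
  | [] => []
  | (c, a, b, c', d) :: L => ax1 c ((T.lookup (a, b, c', d)).getD []) (cmbT T L)

def hasT (T : Tb) (L : TL) : Bool := L.all (fun t => (T.lookup t.2).isSome)

theorem dotR_cmbT (D : ℕ) (x y z w h : ℝ) (τ : List ℝ) (T : Tb)
    (hT : ∀ p ∈ T, GoodE D x y z w h τ p) (L : TL) (hL : hasT T L = true) :
    dotR (cmbT T L) τ = sm D L x y z w h := by
  induction L with
  | nil => simp [cmbT, sm, dotR]
  | cons t L ih =>
    obtain ⟨c, a, b, c', d⟩ := t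
    unfold hasT at hL ih
    rw [List.all_cons, Bool.and_eq_true] at hL
    obtain ⟨h1, h2⟩ := hL
    obtain ⟨g, hg⟩ := Option.isSome_iff_exists.1 h1
    have hg' : T.lookup (a, b, c', d) = some g := hg
    have hm := hT _ (mem_of_lookup T _ g hg')
    unfold GoodE at hm
    simp only [cmbT, sm, dotR_ax1, hg', Option.getD_some, ih h2]
    rw [hm]

end Vale.Agent.P154
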