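import Vale.Agent.P154.R4.Master2
import Vale.Agent.P154.R4.TabC

/-! # P154 q = 4: positivity of a symmetric polynomial of one deviation vector from its chamber coefficients -/

namespace Vale.Agent.P154

open Finset

/-- a linear combination of table entries with nonnegative coefficients is nonnegative -/
theorem sm_nonneg_of_nn1 (D : ℕ) (x y z w h : ℝ) (τ : List ℝ) (hτ : ∀ u ∈ τ, 0 ≤ u) (T : Tb)
    (hT : ∀ p ∈ T, GoodE D x y z w h τ p) (L : TL) (hL : hasT T L = true)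
    (hn : nn1 (cmbT T L) = true) : 0 ≤ sm D L x y z w h := by
  rw [← dotR_cmbT D x y z w h τ T hT L hL]
  refine dotR_nonneg _ _ ?_ hτ
  intro c hc
  unfold nn1 at hn
  rw [List.all_eq_true] at hn
  exact of_decide_eq_true (hn c hc)

theorem posA (D : ℕ) (L : TL)
    (hp : ∀ s0 s1 s2 s3 : ℝ, 0 ≤ s0 → 0 ≤ s1 → 0 ≤ s2 → 0 ≤ s3 →
      0 ≤ sm D L (s0 + s1 + s2 + s3) (s0 + s1 + s2) (s0 + s1) s0 (4 * s0 + 3 * s1 + 2 * s2 + s3))
    (a : Fin 4 → ℝ) (ha0 : ∑ i, a i = 0) (ha : ∀ i, -1 ≤ a i) :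
    0 ≤ sm D L (1 + a 0) (1 + a 1) (1 + a 2) (1 + a 3) 4 := by
  set A : Fin 4 → ℝ := fun i => 1 + a i with hAdef
  have hA0 : ∀ i, 0 ≤ A i := fun i => by
    have := ha i
    simp only [hAdef]
    linarith
  have hsA : ∑ i, A i = 4 := by
    simp only [hAdef, Finset.sum_add_distrib, ha0]
    simp
  obtain ⟨τ, s0, s1, s2, s3, hs0, hs1, hs2, hs3, hsum, e0, e1, e2, e3⟩ := cham_perm A hA0
  rw [hsA] at hsum
  have hpos := hp s0 s1 s2 s3 hs0 hs1 hs2 hs3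
  rw [hsum, ← e0, ← e1, ← e2, ← e3] at hpos
  have cA : sm D L (A (τ 0)) (A (τ 1)) (A (τ 2)) (A (τ 3)) 4
      = sm D L (A 0) (A 1) (A 2) (A 3) 4 :=
    sm_congr D L _ _ _ _ _ _ _ _ _ (fun p q r u => pmV_perm A τ p q r u)
  rw [cA] at hpos
  exact hpos

theorem posB (D : ℕ) (L : TL)
    (hp : ∀ t0 t1 t2 t3 : ℝ, 0 ≤ t0 → 0 ≤ t1 → 0 ≤ t2 → 0 ≤ t3 →
      0 ≤ sm D L (10 * t0 + 9 * t1 + 8 * t2 + 7 * t3) (10 * t0 + 9 * t1 + 8 * t2 + t3)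
        (10 * t0 + 9 * t1 + 2 * t2 + t3) (10 * t0 + 3 * t1 + 2 * t2 + t3)
        (4 * t0 + 3 * t1 + 2 * t2 + t3))
    (b : Fin 4 → ℝ) (hb0 : ∑ i, b i = 0) (hb : ∀ i, -(3 / 5) ≤ b i) :
    0 ≤ sm D L (30 * (1 + b 0)) (30 * (1 + b 1)) (30 * (1 + b 2)) (30 * (1 + b 3)) 12 := by
  set C : Fin 4 → ℝ := fun i => 3 + 5 * b i with hCdef
  set B : Fin 4 → ℝ := fun i => 30 * (1 + b i) with hBdef
  have hC0 : ∀ i, 0 ≤ C i := fun i => by
    have := hb i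
    simp only [hCdef]
    linarith
  have hsC : ∑ i, C i = 12 := by
    simp only [hCdef, Finset.sum_add_distrib, ← Finset.mul_sum, hb0]
    simp
    norm_num
  have hBC : ∀ i, B i = 12 + 6 * C i := fun i => by
    simp only [hBdef, hCdef]
    ring
  obtain ⟨τ', t0, t1, t2, t3, ht0, ht1, ht2, ht3, htsum, f0, f1, f2, f3⟩ := cham_perm C hC0
  rw [hsC] at htsum
  have hpos := hp t0 t1 t2 t3 ht0 ht1 ht2 ht3
  have vB0 : 10 * t0 + 9 * t1 + 8 * t2 + 7 * t3 = B (τ' 0) := by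
    rw [hBC, f0, ← htsum]; ring
  have vB1 : 10 * t0 + 9 * t1 + 8 * t2 + t3 = B (τ' 1) := by
    rw [hBC, f1, ← htsum]; ring
  have vB2 : 10 * t0 + 9 * t1 + 2 * t2 + t3 = B (τ' 2) := by
    rw [hBC, f2, ← htsum]; ring
  have vB3 : 10 * t0 + 3 * t1 + 2 * t2 + t3 = B (τ' 3) := by
    rw [hBC, f3, ← htsum]; ring
  rw [vB0, vB1, vB2, vB3, htsum] at hpos
  have cB : sm D L (B (τ' 0)) (B (τ' 1)) (B (τ' 2)) (B (τ' 3)) 12
      = sm D L (B 0) (B 1) (B 2) (B 3) 12 :=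
    sm_congr D L _ _ _ _ _ _ _ _ _ (fun p q r u => pmV_perm B τ' p q r u)
  rw [cB] at hpos
  exact hpos

end Vale.Agent.P154
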