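import Vale.Agent.P154.R4.Poly
import Vale.Agent.P154.R4.Defs

/-!
# P154 q = 4: symmetric sums `sm` (real) and `smP` (polynomial), with soundness

A term list `L : TL` is a list of `(c, a, b, c', d)`; for real numbers `x y z w h`
`sm D L x y z w h = ∑ c * (pm4 x y z w a b c' d * h ^ (D - (a + b + c' + d)))`.
`smP` is the same computation with polynomials in four variables.
-/

namespace Vale.Agent.P154

abbrev TL := List (ℤ × ℕ × ℕ × ℕ × ℕ)

def pm2P (x y : P4) (a b : ℕ) : P4 :=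
  add4 (mul4 (pow4 x a) (pow4 y b)) (mul4 (pow4 x b) (pow4 y a))

def pm3P (x y z : P4) (a b c : ℕ) : P4 :=
  add4 (add4 (mul4 (pow4 x a) (pm2P y z b c)) (mul4 (pow4 x b) (pm2P y z a c)))
    (mul4 (pow4 x c) (pm2P y z a b))

def pm4P (x y z w : P4) (a b c d : ℕ) : P4 :=
  add4 (add4 (add4 (mul4 (pow4 x a) (pm3P y z w b c d)) (mul4 (pow4 x b) (pm3P y z w a c d)))
    (mul4 (pow4 x c) (pm3P y z w a b d))) (mul4 (pow4 x d) (pm3P y z w a b c))

noncomputable def sm (D : ℕ) : TL → ℝ → ℝ → ℝ → ℝ → ℝ → ℝ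
  | [], _, _, _, _, _ => 0
  | (c, a, b, c', d) :: L, x, y, z, w, h =>
    (c : ℝ) * (pm4 x y z w a b c' d * h ^ (D - (a + b + c' + d))) + sm D L x y z w h

def smP (D : ℕ) : TL → P4 → P4 → P4 → P4 → P4 → P4
  | [], _, _, _, _, _ => []
  | (c, a, b, c', d) :: L, x, y, z, w, h =>
    ax4 c (mul4 (pm4P x y z w a b c' d) (pow4 h (D - (a + b + c' + d)))) (smP D L x y z w h)

section

variable (x0 x1 x2 x3 : ℝ)

theorem ev4_pm2P (x y : P4) (a b : ℕ) :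
    ev4 x0 x1 x2 x3 (pm2P x y a b) = pm2 (ev4 x0 x1 x2 x3 x) (ev4 x0 x1 x2 x3 y) a b := by
  simp only [pm2P, pm2, ev4_add, ev4_mul, ev4_pow]

theorem ev4_pm3P (x y z : P4) (a b c : ℕ) :
    ev4 x0 x1 x2 x3 (pm3P x y z a b c) =
      pm3 (ev4 x0 x1 x2 x3 x) (ev4 x0 x1 x2 x3 y) (ev4 x0 x1 x2 x3 z) a b c := by
  simp only [pm3P, pm3, ev4_add, ev4_mul, ev4_pow, ev4_pm2P]

theorem ev4_pm4P (x y z w : P4) (a b c d : ℕ) :
    ev4 x0 x1 x2 x3 (pm4P x y z w a b c d) =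
      pm4 (ev4 x0 x1 x2 x3 x) (ev4 x0 x1 x2 x3 y) (ev4 x0 x1 x2 x3 z) (ev4 x0 x1 x2 x3 w) a b c d := by
  simp only [pm4P, pm4, ev4_add, ev4_mul, ev4_pow, ev4_pm3P]

theorem ev4_smP (D : ℕ) (L : TL) (x y z w h : P4) :
    ev4 x0 x1 x2 x3 (smP D L x y z w h) =
      sm D L (ev4 x0 x1 x2 x3 x) (ev4 x0 x1 x2 x3 y) (ev4 x0 x1 x2 x3 z) (ev4 x0 x1 x2 x3 w)
        (ev4 x0 x1 x2 x3 h) := by
  induction L with
  | nil => simp [smP, sm, ev4_nil]
  | cons p L ih =>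
    obtain ⟨c, a, b, c', d⟩ := p
    simp only [smP, sm, ev4_ax, ev4_mul, ev4_pow, ev4_pm4P, ih]

end

theorem sm_append (D : ℕ) (L L' : TL) (x y z w h : ℝ) :
    sm D (L ++ L') x y z w h = sm D L x y z w h + sm D L' x y z w h := by
  induction L with
  | nil => simp [sm]
  | cons p L ih =>
    obtain ⟨c, a, b, c', d⟩ := p
    simp only [List.cons_append, sm, ih]
    ring

end Vale.Agent.P154
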