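import Vale.Agent.P154.R4.Bil

/-!
# P154 q = 4: the polynomial `sm D L (cx u0) (cx u1) (cx u2) (cx u3) ch` in the variables `u`, built from monomials

`pmM cf a b c d` is `cf * pm4 u0 u1 u2 u3 a b c d` as a nested polynomial (24 monomials).
-/

namespace Vale.Agent.P154

def pmM2 (cf : ℤ) (e0 e1 : ℕ) (a b : ℕ) : P4 :=
  add4 (mono4 e0 e1 a b cf) (mono4 e0 e1 b a cf)

def pmM3 (cf : ℤ) (e0 : ℕ) (a b c : ℕ) : P4 :=
  add4 (add4 (pmM2 cf e0 a b c) (pmM2 cf e0 b a c)) (pmM2 cf e0 c a b)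

def pmM (cf : ℤ) (a b c d : ℕ) : P4 :=
  add4 (add4 (add4 (pmM3 cf a b c d) (pmM3 cf b a c d)) (pmM3 cf c a b d)) (pmM3 cf d a b c)

def smM (D : ℕ) (cx ch : ℤ) : TL → P4
  | [] => []
  | (c, a, b, c', d) :: L =>
    add4 (pmM (c * cx ^ (a + b + c' + d) * ch ^ (D - (a + b + c' + d))) a b c' d) (smM D cx ch L)

theorem ev4_pmM (u0 u1 u2 u3 : ℝ) (cf : ℤ) (a b c d : ℕ) :
    ev4 u0 u1 u2 u3 (pmM cf a b c d) = cf * pm4 u0 u1 u2 u3 a b c d := by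
  simp only [pmM, pmM3, pmM2, ev4_add, ev4_mono4]
  unfold pm4 pm3 pm2
  ring

theorem pm4_scale (k u0 u1 u2 u3 : ℝ) (a b c d : ℕ) :
    pm4 (k * u0) (k * u1) (k * u2) (k * u3) a b c d = k ^ (a + b + c + d) * pm4 u0 u1 u2 u3 a b c d := by
  unfold pm4 pm3 pm2
  simp only [mul_pow, pow_add]
  ring

theorem ev4_smM (u0 u1 u2 u3 : ℝ) (D : ℕ) (cx ch : ℤ) (L : TL) :
    ev4 u0 u1 u2 u3 (smM D cx ch L) = sm D L (cx * u0) (cx * u1) (cx * u2) (cx * u3) ch := by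
  induction L with
  | nil => simp [smM, sm, ev4_nil]
  | cons p L ih =>
    obtain ⟨c, a, b, c', d⟩ := p
    simp only [smM, sm, ev4_add, ev4_pmM, pm4_scale, ih]
    push_cast
    ring

end Vale.Agent.P154
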