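import Vale.Agent.P154.R4.Cols

/-! # P154 q = 4: substitution of a polynomial for the outermost variable through a table of its powers -/

namespace Vale.Agent.P154

/-- `∑_e WPs[e] * p_e` where `p = [p_0, p_1, ...]` -/
def subT : List P4 → P4 → P4
  | wpe :: WPs, c :: p => add4 (mul4 wpe [c]) (subT WPs p)
  | _, _ => []

/-- `l = [X^(k), X^(k+1), ...]` as far as the values at a point are concerned -/
def PowT (t0 t1 t2 t3 S : ℝ) : ℕ → List P4 → Prop
  | _, [] => True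
  | k, a :: l => ev4 t0 t1 t2 t3 a = S ^ k ∧ PowT t0 t1 t2 t3 S (k + 1) l

def chkPow (X : P4) : P4 → List P4 → Bool
  | _, [] => true
  | prev, a :: l => zr4 (ax4 (-1) (mul4 prev X) a) && chkPow X a l

theorem powT_of_chk (t0 t1 t2 t3 S : ℝ) (X : P4) (hX : ev4 t0 t1 t2 t3 X = S) (prev : P4) (k : ℕ)
    (hprev : ev4 t0 t1 t2 t3 prev = S ^ k) (l : List P4) (hc : chkPow X prev l = true) :
    PowT t0 t1 t2 t3 S (k + 1) l := by
  induction l generalizing prev k with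
  | nil => trivial
  | cons a l ih =>
    rw [chkPow, Bool.and_eq_true] at hc
    obtain ⟨h1, h2⟩ := hc
    have ha : ev4 t0 t1 t2 t3 a = S ^ (k + 1) := by
      rw [ev4_eq_of_zr t0 t1 t2 t3 _ _ h1, ev4_mul, hprev, hX, pow_succ]
    exact ⟨ha, ih a (k + 1) ha h2⟩

theorem ev4_subT (t0 t1 t2 t3 S : ℝ) (k : ℕ) (WPs : List P4) (hW : PowT t0 t1 t2 t3 S k WPs) (p : P4)
    (hl : p.length ≤ WPs.length) :
    ev4 t0 t1 t2 t3 (subT WPs p) = S ^ k * ev4 S t1 t2 t3 p := by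
  induction WPs generalizing p k with
  | nil =>
    cases p with
    | nil => simp [subT, ev4_nil]
    | cons c p => simp at hl
  | cons a WPs ih =>
    cases p with
    | nil => simp [subT, ev4_nil]
    | cons c p =>
      obtain ⟨ha, hW'⟩ := hW
      have hl' : p.length ≤ WPs.length := by simpa using hl
      have h1 : ev4 t0 t1 t2 t3 [c] = ev3 t1 t2 t3 c := by simp [ev4, evL]
      have h2 : ev4 S t1 t2 t3 (c :: p) = ev3 t1 t2 t3 c + S * ev4 S t1 t2 t3 p := by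
        simp [ev4, evL]
      rw [subT, ev4_add, ev4_mul, ha, h1, ih (k + 1) hW' p hl', h2]
      ring

/-- the form used: table `[[[[1]]]] :: l` of the powers of `X` -/
theorem ev4_subT_tab (t0 t1 t2 t3 : ℝ) (X : P4) (l : List P4) (hc : chkPow X [[[[1]]]] l = true) (p : P4)
    (hl : p.length ≤ l.length + 1) :
    ev4 t0 t1 t2 t3 (subT ([[[[1]]]] :: l) p) = ev4 (ev4 t0 t1 t2 t3 X) t1 t2 t3 p := by
  have h1 : ev4 t0 t1 t2 t3 [[[[1]]]] = (ev4 t0 t1 t2 t3 X) ^ 0 := by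
    simp [ev4, ev3, ev2, ev1, evL]
  have hW : PowT t0 t1 t2 t3 (ev4 t0 t1 t2 t3 X) 0 ([[[[1]]]] :: l) :=
    ⟨h1, powT_of_chk t0 t1 t2 t3 _ X rfl _ 0 h1 l hc⟩
  rw [ev4_subT t0 t1 t2 t3 _ 0 _ hW p (by simpa using hl), pow_zero, one_mul]

end Vale.Agent.P154
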