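import Vale.Agent.P154.R4.KForm
import Vale.Agent.P154.R4.PermA

/-! # P154 q = 4: the average of the normalisation over the relative permutations is one -/

namespace Vale.Agent.P154

open Finset

private lemma pmV_one (V : Fin 4 → ℝ) : pmV V 1 0 0 0 = 6 * (V 0 + V 1 + V 2 + V 3) := by
  unfold pmV pm4 pm3 pm2
  ring

theorem sum_e1Q (a b : Fin 4 → ℝ) (ha0 : ∑ i, a i = 0) (hb0 : ∑ i, b i = 0) :
    ∑ σ : Equiv.Perm (Fin 4), e1Q (uQ a (fun i => b (σ i))) = 24 := by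
  have h := pmV_sum_perm (fun i => 1 + a i) (fun i => 1 + b i) 1 0 0 0
  simp only [pmV_one] at h
  rw [Fin.sum_univ_four] at ha0 hb0
  have e : ∀ σ : Equiv.Perm (Fin 4), e1Q (uQ a (fun i => b (σ i))) =
      (6 * ((1 + a 0) * (1 + b (σ 0)) + (1 + a 1) * (1 + b (σ 1)) + (1 + a 2) * (1 + b (σ 2))
        + (1 + a 3) * (1 + b (σ 3)))) / 24 := by
    intro σ
    unfold e1Q uQ
    ring
  simp only [e]
  rw [← Finset.sum_div, h]
  have h1 : 1 + a 0 + (1 + a 1) + (1 + a 2) + (1 + a 3) = 4 := by linarith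
  have h2 : 1 + b 0 + (1 + b 1) + (1 + b 2) + (1 + b 3) = 4 := by linarith
  rw [h1, h2]
  norm_num

end Vale.Agent.P154
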