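import Vale.Agent.P154.R4.Defs

/-! # P154 q = 4: algebra of `pm4`: symmetry in the exponents and multiplication by the sum of the variables -/

namespace Vale.Agent.P154

def cs2 (a b : ℕ) : ℕ × ℕ := if b ≤ a then (a, b) else (b, a)

/-- a sorting network on four exponents (only the invariance of `pm4` is used) -/
def srt4 (k : ℕ × ℕ × ℕ × ℕ) : ℕ × ℕ × ℕ × ℕ :=
  let p := cs2 k.1 k.2.1
  let q := cs2 k.2.2.1 k.2.2.2
  let r := cs2 p.1 q.1
  let s := cs2 p.2 q.2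
  let u := cs2 r.2 s.1
  (r.1, u.1, u.2, s.2)

theorem pm4_swap12 (x y z w : ℝ) (a b c d : ℕ) : pm4 x y z w b a c d = pm4 x y z w a b c d := by
  unfold pm4 pm3 pm2; ring

theorem pm4_swap23 (x y z w : ℝ) (a b c d : ℕ) : pm4 x y z w a c b d = pm4 x y z w a b c d := by
  unfold pm4 pm3 pm2; ring

theorem pm4_swap34 (x y z w : ℝ) (a b c d : ℕ) : pm4 x y z w a b d c = pm4 x y z w a b c d := by
  unfold pm4 pm3 pm2; ring

theorem pm4_swap13 (x y z w : ℝ) (a b c d : ℕ) : pm4 x y z w c b a d = pm4 x y z w a b c d := by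
  unfold pm4 pm3 pm2; ring

theorem pm4_swap24 (x y z w : ℝ) (a b c d : ℕ) : pm4 x y z w a d c b = pm4 x y z w a b c d := by
  unfold pm4 pm3 pm2; ring

theorem pm4_cs12 (x y z w : ℝ) (a b c d : ℕ) :
    pm4 x y z w (cs2 a b).1 (cs2 a b).2 c d = pm4 x y z w a b c d := by
  unfold cs2; split_ifs
  · rfl
  · exact pm4_swap12 x y z w a b c d

theorem pm4_cs34 (x y z w : ℝ) (a b c d : ℕ) :
    pm4 x y z w a b (cs2 c d).1 (cs2 c d).2 = pm4 x y z w a b c d := by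
  unfold cs2; split_ifs
  · rfl
  · exact pm4_swap34 x y z w a b c d

theorem pm4_cs13 (x y z w : ℝ) (a b c d : ℕ) :
    pm4 x y z w (cs2 a c).1 b (cs2 a c).2 d = pm4 x y z w a b c d := by
  unfold cs2; split_ifs
  · rfl
  · exact pm4_swap13 x y z w a b c d

theorem pm4_cs24 (x y z w : ℝ) (a b c d : ℕ) :
    pm4 x y z w a (cs2 b d).1 c (cs2 b d).2 = pm4 x y z w a b c d := by
  unfold cs2; split_ifs
  · rfl
  · exact pm4_swap24 x y z w a b c d

theorem pm4_cs23 (x y z w : ℝ) (a b c d : ℕ) :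
    pm4 x y z w a (cs2 b c).1 (cs2 b c).2 d = pm4 x y z w a b c d := by
  unfold cs2; split_ifs
  · rfl
  · exact pm4_swap23 x y z w a b c d

theorem pm4_srt4 (x y z w : ℝ) (k : ℕ × ℕ × ℕ × ℕ) :
    pm4 x y z w (srt4 k).1 (srt4 k).2.1 (srt4 k).2.2.1 (srt4 k).2.2.2 =
      pm4 x y z w k.1 k.2.1 k.2.2.1 k.2.2.2 := by
  obtain ⟨a, b, c, d⟩ := k
  simp only [srt4]
  rw [pm4_cs23, pm4_cs12, pm4_cs34, pm4_swap23, pm4_cs12, pm4_cs34]

theorem cs2_sum (a b : ℕ) : (cs2 a b).1 + (cs2 a b).2 = a + b := by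
  unfold cs2; split_ifs
  · rfl
  · exact Nat.add_comm b a

theorem srt4_sum (k : ℕ × ℕ × ℕ × ℕ) :
    (srt4 k).1 + (srt4 k).2.1 + (srt4 k).2.2.1 + (srt4 k).2.2.2 = k.1 + k.2.1 + k.2.2.1 + k.2.2.2 := by
  obtain ⟨a, b, c, d⟩ := k
  simp only [srt4]
  have h1 := cs2_sum a b
  have h2 := cs2_sum c d
  have h3 := cs2_sum (cs2 a b).1 (cs2 c d).1
  have h4 := cs2_sum (cs2 a b).2 (cs2 c d).2
  have h5 := cs2_sum (cs2 (cs2 a b).1 (cs2 c d).1).2 (cs2 (cs2 a b).2 (cs2 c d).2).1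
  omega

theorem pm4_pieri (x y z w : ℝ) (a b c d : ℕ) :
    (x + y + z + w) * pm4 x y z w a b c d =
      pm4 x y z w (a + 1) b c d + pm4 x y z w a (b + 1) c d + pm4 x y z w a b (c + 1) d
        + pm4 x y z w a b c (d + 1) := by
  unfold pm4 pm3 pm2
  simp only [pow_succ]
  ring

end Vale.Agent.P154
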