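import Vale.Agent.P154.R4.Flat
import Vale.Agent.P154.R4.TabA

/-!
# P154 q = 4: tables of the flat coefficient vectors of `pm4 (x, y, z, w; κ) * h ^ (D - |κ|)`

The entries of top degree `|κ| = D` are checked directly; the entries of lower degree through
`e * h * pm4 κ = ∑_i pm4 (κ + e_i)` (valid when `x + y + z + w = e * h`).
-/

namespace Vale.Agent.P154

abbrev Tb := List (Ex × List ℤ)

/-- the entry `p` of a table is correct at the point with monomial values `τ` -/
def GoodE (D : ℕ) (x y z w h : ℝ) (τ : List ℝ) (p : Ex × List ℤ) : Prop :=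
  dotR p.2 τ = pm4 x y z w p.1.1 p.1.2.1 p.1.2.2.1 p.1.2.2.2
    * h ^ (D - (p.1.1 + p.1.2.1 + p.1.2.2.1 + p.1.2.2.2))

def stepOK (e : ℤ) (D : ℕ) (done : Tb) (k : Ex) (g : List ℤ) : Bool :=
  match done.lookup (srt4 (k.1 + 1, k.2.1, k.2.2.1, k.2.2.2)),
      done.lookup (srt4 (k.1, k.2.1 + 1, k.2.2.1, k.2.2.2)),
      done.lookup (srt4 (k.1, k.2.1, k.2.2.1 + 1, k.2.2.2)),
      done.lookup (srt4 (k.1, k.2.1, k.2.2.1, k.2.2.2 + 1)) with
  | some g1, some g2, some g3, some g4 =>
    decide (k.1 + k.2.1 + k.2.2.1 + k.2.2.2 < D) && zr1 (ax1 (-e) g (add1 (add1 g1 g2) (add1 g3 g4)))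
  | _, _, _, _ => false

def chkT (e : ℤ) (D : ℕ) : Tb → Tb → Bool
  | _, [] => true
  | done, p :: todo => stepOK e D done p.1 p.2 && chkT e D (p :: done) todo

theorem mem_of_lookup (T : Tb) (k : Ex) (g : List ℤ) (h : T.lookup k = some g) : (k, g) ∈ T := by
  induction T with
  | nil => simp at h
  | cons p T ih =>
    obtain ⟨k', g'⟩ := p
    rw [List.lookup_cons] at h
    by_cases hk : (k == k') = true
    · rw [hk] at h
      have hk' : k = k' := by simpa using hk
      have hg : g' = g := by simpa using h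
      subst hk' hg
      exact List.mem_cons_self
    · have hk2 : (k == k') = false := by simpa using hk
      rw [hk2] at h
      exact List.mem_cons_of_mem _ (ih h)

theorem good_of_stepOK (e : ℤ) (he : e ≠ 0) (D : ℕ) (x y z w h : ℝ) (hs : x + y + z + w = e * h)
    (τ : List ℝ) (done : Tb) (hd : ∀ p ∈ done, GoodE D x y z w h τ p) (k : Ex) (g : List ℤ)
    (hc : stepOK e D done k g = true) : GoodE D x y z w h τ (k, g) := by
  obtain ⟨a, b, c, d⟩ := k
  unfold stepOK at hc
  split at hc
  · rename_i g1 g2 g3 g4 h1 h2 h3 h4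
    rw [Bool.and_eq_true, decide_eq_true_eq] at hc
    obtain ⟨hlt, hz⟩ := hc
    simp only at hlt h1 h2 h3 h4
    have hz' := dotR_zr1 _ hz τ
    rw [dotR_ax1, dotR_add1, dotR_add1, dotR_add1] at hz'
    have G1 := hd _ (mem_of_lookup _ _ _ h1)
    have G2 := hd _ (mem_of_lookup _ _ _ h2)
    have G3 := hd _ (mem_of_lookup _ _ _ h3)
    have G4 := hd _ (mem_of_lookup _ _ _ h4)
    unfold GoodE at G1 G2 G3 G4 ⊢
    simp only [pm4_srt4, srt4_sum] at G1 G2 G3 G4
    simp only
    have e1 : D - (a + 1 + b + c + d) = D - (a + b + c + d) - 1 := by omega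
    have e2 : D - (a + (b + 1) + c + d) = D - (a + b + c + d) - 1 := by omega
    have e3 : D - (a + b + (c + 1) + d) = D - (a + b + c + d) - 1 := by omega
    have e4 : D - (a + b + c + (d + 1)) = D - (a + b + c + d) - 1 := by omega
    rw [e1] at G1
    rw [e2] at G2
    rw [e3] at G3
    rw [e4] at G4
    obtain ⟨m, hm⟩ : ∃ m, D - (a + b + c + d) = m + 1 := ⟨D - (a + b + c + d) - 1, by omega⟩
    rw [hm] at G1 G2 G3 G4 ⊢
    simp only [Nat.add_sub_cancel] at G1 G2 G3 G4
    have hp := pm4_pieri x y z w a b c d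
    have he' : (e : ℝ) ≠ 0 := by exact_mod_cast he
    apply mul_left_cancel₀ he'
    rw [G1, G2, G3, G4] at hz'
    push_cast at hz'
    have : (e : ℝ) * dotR g τ = ((x + y + z + w) * pm4 x y z w a b c d) * h ^ m := by
      rw [hp]
      linarith
    rw [this, hs]
    ring
  · exact absurd hc (by simp)

theorem good_of_chkT (e : ℤ) (he : e ≠ 0) (D : ℕ) (x y z w h : ℝ) (hs : x + y + z + w = e * h)
    (τ : List ℝ) (done todo : Tb) (hd : ∀ p ∈ done, GoodE D x y z w h τ p)
    (hc : chkT e D done todo = true) : ∀ p ∈ todo, GoodE D x y z w h τ p := by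
  induction todo generalizing done with
  | nil => intro p hp; simp at hp
  | cons q todo ih =>
    rw [chkT, Bool.and_eq_true] at hc
    obtain ⟨h1, h2⟩ := hc
    have hq : GoodE D x y z w h τ q := good_of_stepOK e he D x y z w h hs τ done hd q.1 q.2 h1
    intro p hp
    rcases List.mem_cons.1 hp with rfl | hp
    · exact hq
    · refine ih (q :: done) ?_ h2 p hp
      intro r hr
      rcases List.mem_cons.1 hr with rfl | hr
      · exact hq
      · exact hd r hr

end Vale.Agent.P154
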